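import Vale.Agent.Helper6.P074Tri

/-!
# A measurable set between two concentric cubes: density bounds and bisecting slabs

`Sandwich K p r R` says that `K ⊆ R^(n+2)` is measurable, contains the sup-norm cube of
radius `r > 0` about `p` and is contained in the cube of radius `R` about `p`.
-/

namespace Vale.Agent.Helper6.P074

open MeasureTheory Vale.Agent.Helper16.OT
open Classical

variable {n : ℕ}

/-- `K` is measurable and lies between the cubes of radii `r` and `R` about `p`. -/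
structure Sandwich (K : Set (Fin (n + 2) → ℝ)) (p : Fin (n + 2) → ℝ) (r R : ℝ) : Prop where
  meas : MeasurableSet K
  rpos : 0 < r
  rR : r ≤ R
  inn : ∀ x : Fin (n + 2) → ℝ, (∀ i, |x i - p i| ≤ r) → x ∈ K
  out : ∀ x ∈ K, ∀ i, |x i - p i| ≤ R

/-- Upper density constant: slabs of width `w` have mass at most `w * Lam K R`. -/
noncomputable def Lam (K : Set (Fin (n + 2) → ℝ)) (R : ℝ) : ℝ :=
  (2 * R) * (2 * R) ^ n / (volume K).toReal

/-- Lower density constant: boxes inside the inner cube of sides `a`, `b` (and full in the other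
directions) have mass at least `a * b * lam K r`. -/
noncomputable def lam (K : Set (Fin (n + 2) → ℝ)) (r : ℝ) : ℝ :=
  (2 * r) ^ n / (volume K).toReal

section

variable {K : Set (Fin (n + 2) → ℝ)} {p : Fin (n + 2) → ℝ} {r R : ℝ}

lemma Sandwich.Rpos (h : Sandwich K p r R) : 0 < R := lt_of_lt_of_le h.rpos h.rR

lemma Sandwich.vol_pos (h : Sandwich K p r R) : 0 < volume K := by
  have hsub : Set.Icc (fun i => p i - r) (fun i => p i + r) ⊆ K := by
    intro x hx
    apply h.inn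
    intro i
    rw [abs_le]
    have h1 := hx.1 i
    have h2 := hx.2 i
    constructor <;> linarith
  refine lt_of_lt_of_le ?_ (measure_mono hsub)
  rw [Real.volume_Icc_pi, pos_iff_ne_zero, Finset.prod_ne_zero_iff]
  intro i _
  have : 0 < p i + r - (p i - r) := by linarith [h.rpos]
  simpa using this

lemma Sandwich.vol_lt_top (h : Sandwich K p r R) : volume K < ⊤ := by
  have hsub : K ⊆ Set.Icc (fun i => p i - R) (fun i => p i + R) := by
    intro x hx
    constructor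
    · intro i
      have := (abs_le.mp (h.out x hx i)).1
      show p i - R ≤ x i
      linarith
    · intro i
      have := (abs_le.mp (h.out x hx i)).2
      show x i ≤ p i + R
      linarith
  exact lt_of_le_of_lt (measure_mono hsub) isCompact_Icc.measure_lt_top

lemma Sandwich.v_pos (h : Sandwich K p r R) : 0 < (volume K).toReal :=
  ENNReal.toReal_pos h.vol_pos.ne' h.vol_lt_top.ne

lemma Sandwich.Lam_pos (h : Sandwich K p r R) : 0 < Lam K R := by
  have := h.v_pos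
  have := h.Rpos
  unfold Lam
  positivity

lemma Sandwich.lam_pos (h : Sandwich K p r R) : 0 < lam K r := by
  have := h.v_pos
  have := h.rpos
  unfold lam
  positivity

lemma Sandwich.isProb (h : Sandwich K p r R) : IsProbabilityMeasure (unif K) := by
  constructor
  rw [unif_apply K MeasurableSet.univ, Set.univ_inter]
  exact ENNReal.inv_mul_cancel h.vol_pos.ne' h.vol_lt_top.ne

/-- Conversion of a product of `ENNReal.ofReal` factors divided by the volume. -/
lemma Sandwich.conv (h : Sandwich K p r R) (a b c : ℝ) (ha : 0 ≤ a) (hb : 0 ≤ b)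
    (hc : 0 ≤ c) :
    (volume K)⁻¹ * (ENNReal.ofReal a * (ENNReal.ofReal b * ∏ _i : Fin n, ENNReal.ofReal c))
      = ENNReal.ofReal (a * (b * c ^ n) / (volume K).toReal) := by
  have hv : 0 < (volume K).toReal := h.v_pos
  rw [Finset.prod_const, Finset.card_univ, Fintype.card_fin]
  conv_lhs => rw [← ENNReal.ofReal_toReal h.vol_lt_top.ne]
  rw [← ENNReal.ofReal_inv_of_pos hv, ← ENNReal.ofReal_pow hc, ← ENNReal.ofReal_mul hb,
    ← ENNReal.ofReal_mul ha, ← ENNReal.ofReal_mul (inv_nonneg.mpr hv.le)]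
  congr 1
  rw [div_eq_inv_mul]

/-- Boxes inside the inner cube have mass bounded below. -/
lemma Sandwich.box_le (h : Sandwich K p r R) {A : Set (Fin (n + 2) → ℝ)}
    (hA : MeasurableSet A) (a0 b0 a1 b1 : ℝ) (h0 : a0 ≤ b0) (h1 : a1 ≤ b1)
    (ha0 : p 0 - r ≤ a0) (hb0 : b0 ≤ p 0 + r) (ha1 : p 1 - r ≤ a1) (hb1 : b1 ≤ p 1 + r)
    (hsub : ∀ x : Fin (n + 2) → ℝ, a0 ≤ x 0 → x 0 ≤ b0 → a1 ≤ x 1 → x 1 ≤ b1 → x ∈ A) :
    ENNReal.ofReal ((b0 - a0) * (b1 - a1) * lam K r) ≤ unif K A := by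
  have e : (b0 - a0) * (b1 - a1) * lam K r
      = (b0 - a0) * ((b1 - a1) * (2 * r) ^ n) / (volume K).toReal := by
    unfold lam; ring
  rw [e, unif_apply K hA,
    ← h.conv _ _ _ (sub_nonneg.mpr h0) (sub_nonneg.mpr h1) (by linarith [h.rpos])]
  have hv := vol_box a0 b0 a1 b1 (fun i : Fin n => p i.succ.succ - r)
    (fun i : Fin n => p i.succ.succ + r)
  have e2 : ∀ i : Fin n, p i.succ.succ + r - (p i.succ.succ - r) = 2 * r := fun i => by ring
  simp only [e2] at hv
  rw [← hv]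
  gcongr
  intro x hx
  rw [mem_box] at hx
  obtain ⟨⟨h1, h2⟩, ⟨h3, h4⟩, h5⟩ := hx
  refine ⟨hsub x h1 h2 h3 h4, h.inn x ?_⟩
  rw [mem_cube_iff]
  exact ⟨⟨by linarith, by linarith⟩, ⟨by linarith, by linarith⟩, h5⟩

/-- Sets whose part in `K` lies in a slab have mass bounded above. -/
lemma Sandwich.slab_le (h : Sandwich K p r R) {A : Set (Fin (n + 2) → ℝ)}
    (hA : MeasurableSet A) (β β' : ℝ) (hβ : β ≤ β')
    (hsub : ∀ x ∈ A, x ∈ K → β ≤ x 0 ∧ x 0 ≤ β') :
    unif K A ≤ ENNReal.ofReal ((β' - β) * Lam K R) := by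
  have hR := h.Rpos
  have e : (β' - β) * Lam K R = (β' - β) * ((2 * R) * (2 * R) ^ n) / (volume K).toReal := by
    unfold Lam; ring
  rw [e, unif_apply K hA,
    ← h.conv _ _ _ (sub_nonneg.mpr hβ) (by linarith) (by linarith)]
  have hv := vol_box β β' (p 1 - R) (p 1 + R) (fun i : Fin n => p i.succ.succ - R)
    (fun i : Fin n => p i.succ.succ + R)
  have e1 : p 1 + R - (p 1 - R) = 2 * R := by ring
  have e2 : ∀ i : Fin n, p i.succ.succ + R - (p i.succ.succ - R) = 2 * R := fun i => by ring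
  simp only [e1, e2] at hv
  rw [← hv]
  gcongr
  intro x hx
  rw [mem_box]
  have hK := (mem_cube_iff p R x).mp (h.out x hx.2)
  exact ⟨hsub x hx.1 hx.2, hK.2.1, hK.2.2⟩

/-- Intermediate value theorem for a function with Lipschitz bound on increments. -/
lemma ivt_aux (F : ℝ → ℝ) (L : ℝ) (hL : 0 ≤ L) (a b : ℝ) (hab : a ≤ b)
    (hF : ∀ x y, x ≤ y → |F y - F x| ≤ L * (y - x)) (m : ℝ)
    (hm : m ∈ Set.uIcc (F a) (F b)) : ∃ β, a ≤ β ∧ β ≤ b ∧ F β = m := by
  have hlip : LipschitzWith (Real.toNNReal L) F := by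
    apply LipschitzWith.of_dist_le_mul
    intro x y
    rw [Real.dist_eq, Real.dist_eq, Real.coe_toNNReal _ hL]
    rcases le_total x y with hxy | hxy
    · have h1 := hF x y hxy
      have e : |x - y| = y - x := by rw [abs_sub_comm]; exact abs_of_nonneg (by linarith)
      rw [e, abs_sub_comm]
      exact h1
    · have h1 := hF y x hxy
      have e : |x - y| = x - y := abs_of_nonneg (by linarith)
      rw [e]
      exact h1
  have hc : ContinuousOn F (Set.uIcc a b) := hlip.continuous.continuousOn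
  obtain ⟨β, hβ, hβm⟩ := intermediate_value_uIcc hc hm
  rw [Set.uIcc_of_le hab] at hβ
  exact ⟨β, hβ.1, hβ.2, hβm⟩

lemma measurableSet_coord_lt (c : ℝ) : MeasurableSet {x : Fin (n + 2) → ℝ | x 0 < c} :=
  measurableSet_lt (measurable_pi_apply 0) measurable_const

lemma measurableSet_coord_gt (c : ℝ) : MeasurableSet {x : Fin (n + 2) → ℝ | c < x 0} :=
  measurableSet_lt measurable_const (measurable_pi_apply 0)

/-- The closed slab `β0 ≤ x 0 ≤ β1`. -/
def slab (β0 β1 : ℝ) : Set (Fin (n + 2) → ℝ) := {x | β0 ≤ x 0 ∧ x 0 ≤ β1}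

lemma measurableSet_slab (β0 β1 : ℝ) : MeasurableSet (slab β0 β1 : Set (Fin (n + 2) → ℝ)) :=
  (measurableSet_le measurable_const (measurable_pi_apply 0)).inter
    (measurableSet_le (measurable_pi_apply 0) measurable_const)

/-- A left half-space of prescribed mass. -/
lemma Sandwich.exists_left (h : Sandwich K p r R) (m : ENNReal)
    (hlo : unif K {x | x 0 < p 0 - r} ≤ m) (hhi : m ≤ unif K {x | x 0 < p 0 + r}) :
    ∃ β, p 0 - r ≤ β ∧ β ≤ p 0 + r ∧ unif K {x : Fin (n + 2) → ℝ | x 0 < β} = m := by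
  have := h.isProb
  have hfin : ∀ A : Set (Fin (n + 2) → ℝ), unif K A ≠ ⊤ := fun A => measure_ne_top _ _
  have hm : m ≠ ⊤ := ne_top_of_le_ne_top (hfin _) hhi
  have hinc : ∀ x y : ℝ, x ≤ y →
      |(unif K {z : Fin (n + 2) → ℝ | z 0 < y}).toReal
        - (unif K {z : Fin (n + 2) → ℝ | z 0 < x}).toReal| ≤ Lam K R * (y - x) := by
    intro x y hxy
    have h1 : unif K {z : Fin (n + 2) → ℝ | z 0 < x} ≤ unif K {z : Fin (n + 2) → ℝ | z 0 < y} :=
      measure_mono (fun z hz => lt_of_lt_of_le hz hxy)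
    have h2 : unif K {z : Fin (n + 2) → ℝ | z 0 < y}
        ≤ unif K {z : Fin (n + 2) → ℝ | z 0 < x} + ENNReal.ofReal ((y - x) * Lam K R) := by
      have hsub : {z : Fin (n + 2) → ℝ | z 0 < y} ⊆ {z | z 0 < x} ∪ slab x y := by
        intro z hz
        by_cases hzx : z 0 < x
        · exact Or.inl hzx
        · exact Or.inr ⟨not_lt.mp hzx, le_of_lt hz⟩
      calc unif K {z : Fin (n + 2) → ℝ | z 0 < y}
          ≤ unif K ({z | z 0 < x} ∪ slab x y) := measure_mono hsub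
        _ ≤ unif K {z | z 0 < x} + unif K (slab x y) := measure_union_le _ _
        _ ≤ unif K {z | z 0 < x} + ENNReal.ofReal ((y - x) * Lam K R) := by
            gcongr
            exact h.slab_le (measurableSet_slab x y) x y hxy (fun z hz _ => hz)
    have h1' := ENNReal.toReal_mono (hfin _) h1
    have h2' := ENNReal.toReal_mono (ENNReal.add_ne_top.mpr ⟨hfin _, ENNReal.ofReal_ne_top⟩) h2
    rw [ENNReal.toReal_add (hfin _) ENNReal.ofReal_ne_top,
      ENNReal.toReal_ofReal (mul_nonneg (by linarith) h.Lam_pos.le)] at h2'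
    rw [abs_le]
    constructor <;> nlinarith
  obtain ⟨β, hβ1, hβ2, hβ⟩ := ivt_aux
    (fun y => (unif K {z : Fin (n + 2) → ℝ | z 0 < y}).toReal) (Lam K R) h.Lam_pos.le
    (p 0 - r) (p 0 + r) (by linarith [h.rpos]) hinc m.toReal
    (Set.mem_uIcc.mpr (Or.inl ⟨ENNReal.toReal_mono hm hlo, ENNReal.toReal_mono (hfin _) hhi⟩))
  exact ⟨β, hβ1, hβ2, (ENNReal.toReal_eq_toReal_iff' (hfin _) hm).mp hβ⟩

/-- A right half-space of prescribed mass. -/
lemma Sandwich.exists_right (h : Sandwich K p r R) (m : ENNReal)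
    (hlo : unif K {x | p 0 + r < x 0} ≤ m) (hhi : m ≤ unif K {x | p 0 - r < x 0}) :
    ∃ β, p 0 - r ≤ β ∧ β ≤ p 0 + r ∧ unif K {x : Fin (n + 2) → ℝ | β < x 0} = m := by
  have := h.isProb
  have hfin : ∀ A : Set (Fin (n + 2) → ℝ), unif K A ≠ ⊤ := fun A => measure_ne_top _ _
  have hm : m ≠ ⊤ := ne_top_of_le_ne_top (hfin _) hhi
  have hinc : ∀ x y : ℝ, x ≤ y →
      |(unif K {z : Fin (n + 2) → ℝ | y < z 0}).toReal
        - (unif K {z : Fin (n + 2) → ℝ | x < z 0}).toReal| ≤ Lam K R * (y - x) := by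
    intro x y hxy
    have h1 : unif K {z : Fin (n + 2) → ℝ | y < z 0} ≤ unif K {z : Fin (n + 2) → ℝ | x < z 0} :=
      measure_mono (fun z hz => lt_of_le_of_lt hxy hz)
    have h2 : unif K {z : Fin (n + 2) → ℝ | x < z 0}
        ≤ unif K {z : Fin (n + 2) → ℝ | y < z 0} + ENNReal.ofReal ((y - x) * Lam K R) := by
      have hsub : {z : Fin (n + 2) → ℝ | x < z 0} ⊆ {z | y < z 0} ∪ slab x y := by
        intro z hz
        by_cases hzy : y < z 0
        · exact Or.inl hzy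
        · exact Or.inr ⟨le_of_lt hz, not_lt.mp hzy⟩
      calc unif K {z : Fin (n + 2) → ℝ | x < z 0}
          ≤ unif K ({z | y < z 0} ∪ slab x y) := measure_mono hsub
        _ ≤ unif K {z | y < z 0} + unif K (slab x y) := measure_union_le _ _
        _ ≤ unif K {z | y < z 0} + ENNReal.ofReal ((y - x) * Lam K R) := by
            gcongr
            exact h.slab_le (measurableSet_slab x y) x y hxy (fun z hz _ => hz)
    have h1' := ENNReal.toReal_mono (hfin _) h1
    have h2' := ENNReal.toReal_mono (ENNReal.add_ne_top.mpr ⟨hfin _, ENNReal.ofReal_ne_top⟩) h2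
    rw [ENNReal.toReal_add (hfin _) ENNReal.ofReal_ne_top,
      ENNReal.toReal_ofReal (mul_nonneg (by linarith) h.Lam_pos.le)] at h2'
    rw [abs_le]
    constructor <;> nlinarith
  obtain ⟨β, hβ1, hβ2, hβ⟩ := ivt_aux
    (fun y => (unif K {z : Fin (n + 2) → ℝ | y < z 0}).toReal) (Lam K R) h.Lam_pos.le
    (p 0 - r) (p 0 + r) (by linarith [h.rpos]) hinc m.toReal
    (Set.mem_uIcc.mpr (Or.inr ⟨ENNReal.toReal_mono hm hlo, ENNReal.toReal_mono (hfin _) hhi⟩))
  exact ⟨β, hβ1, hβ2, (ENNReal.toReal_eq_toReal_iff' (hfin _) hm).mp hβ⟩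

/-- The wedge `|x 0 - p 0| ≤ t (x 1 - h)`. -/
def wedge (p : Fin (n + 2) → ℝ) (h t : ℝ) : Set (Fin (n + 2) → ℝ) :=
  {x | |x 0 - p 0| ≤ t * (x 1 - h)}

lemma measurableSet_wedge (p : Fin (n + 2) → ℝ) (h t : ℝ) : MeasurableSet (wedge p h t) :=
  (isClosed_le (by fun_prop) (by fun_prop)).measurableSet

lemma sqDist_zero_yN (t : ℝ) : sqDist (0 : Fin (n + 2) → ℝ) (yN t) = t ^ 2 := by
  rw [sqDist_yN, sqDist_self]; simp

lemma sqDist_zero_yL : sqDist (0 : Fin (n + 2) → ℝ) yL = 1 := by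
  rw [sqDist_yL, sqDist_self]; simp

lemma sqDist_zero_yR : sqDist (0 : Fin (n + 2) → ℝ) yR = 1 := by
  rw [sqDist_yR, sqDist_self]; simp

/-- The wedge map is optimal. -/
lemma isOptMap_wedge (ρ : Measure (Fin (n + 2) → ℝ)) [IsFiniteMeasure ρ]
    (p : Fin (n + 2) → ℝ) (h t : ℝ) (ht0 : 0 < t) (ht1 : t ≤ 1) :
    IsOptMap ρ (ρ.map (tri (wedge p h t) (p 0) (yN t))) (tri (wedge p h t) (p 0) (yN t)) := by
  have hth : -|h| ≤ t * h := by
    have h1 : |t * h| ≤ |h| := by
      rw [abs_mul, abs_of_pos ht0]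
      exact mul_le_of_le_one_left (abs_nonneg h) ht1
    have h2 := neg_abs_le (t * h)
    linarith
  have ht2 : t ^ 2 ≤ 1 := by nlinarith
  have hp := neg_abs_le (p 0)
  have hp' := le_abs_self (p 0)
  refine isOptMap_tri ρ (measurableSet_wedge p h t) (p 0) (yN_ne_yL t) (yN_ne_yR t)
    (4 * |p 0| + 2 * |h| + 1 + 1 - t ^ 2 + 2 * p 0 + 2 * (t * h)) (4 * |p 0| + 2 * |h| + 1)
    (p 0) (by linarith [abs_nonneg h]) (by positivity) (by linarith [abs_nonneg h]) ?_ ?_ ?_
  · intro x hx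
    have hx' : |x 0 - p 0| ≤ t * (x 1 - h) := hx
    have h1 := (abs_le.mp hx').1
    have h2 := (abs_le.mp hx').2
    rw [sqDist_yN, sqDist_yL, sqDist_yR]
    constructor <;> nlinarith
  · intro x hx hxc
    have hx' : ¬ |x 0 - p 0| ≤ t * (x 1 - h) := hx
    have h1 : |x 0 - p 0| = p 0 - x 0 := by
      rw [abs_sub_comm]; exact abs_of_nonneg (by linarith)
    rw [h1] at hx'
    rw [sqDist_yN, sqDist_yL]
    constructor
    · nlinarith
    · exact hxc
  · intro x hx hxc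
    have hx' : ¬ |x 0 - p 0| ≤ t * (x 1 - h) := hx
    have h1 : |x 0 - p 0| = x 0 - p 0 := abs_of_nonneg (by linarith)
    rw [h1] at hx'
    rw [sqDist_yN, sqDist_yR]
    constructor
    · nlinarith
    · exact hxc.le

/-- The slab map is optimal. -/
lemma isOptMap_slab (ρ : Measure (Fin (n + 2) → ℝ)) [IsFiniteMeasure ρ]
    (β0 β1 : ℝ) (hβ : β0 ≤ β1) :
    IsOptMap ρ (ρ.map (tri (slab β0 β1) β0 0)) (tri (slab β0 β1) β0 0) := by
  have h0 := neg_abs_le β0
  have h1 := neg_abs_le β1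
  refine isOptMap_tri ρ (measurableSet_slab β0 β1) β0 zero_ne_yL zero_ne_yR
    (2 * |β0| + 2 * |β1| + 1 + 1 + 2 * β0) (2 * |β0| + 2 * |β1| + 1)
    ((β0 + β1) / 2) (by linarith [abs_nonneg β1]) (by positivity) (by linarith) ?_ ?_ ?_
  · intro x hx
    have hx1 : β0 ≤ x 0 := hx.1
    have hx2 : x 0 ≤ β1 := hx.2
    rw [sqDist_yL, sqDist_yR]
    constructor <;> linarith
  · intro x _ hxc
    rw [sqDist_yL]
    constructor <;> linarith
  · intro x hx hxc
    have hx' : β1 < x 0 := by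
      by_contra hcon
      exact hx ⟨hxc.le, not_lt.mp hcon⟩
    rw [sqDist_yR]
    constructor <;> linarith

/-- The slab map with the third site moved has the same push-forward as the wedge map as soon
as the side cells have equal masses. -/
lemma map_tri_eq (ρ : Measure (Fin (n + 2) → ℝ)) [IsProbabilityMeasure ρ]
    (p : Fin (n + 2) → ℝ) (h t β0 β1 : ℝ) (hβ : β0 ≤ β1)
    (hL : ρ {x | x 0 < β0} = ρ {x | x ∉ wedge p h t ∧ x 0 ≤ p 0})
    (hR : ρ {x | β1 < x 0} = ρ {x | x ∉ wedge p h t ∧ p 0 < x 0}) :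
    ρ (slab β0 β1) = ρ (wedge p h t) ∧
      ρ.map (tri (slab β0 β1) β0 (yN t)) = ρ.map (tri (wedge p h t) (p 0) (yN t)) := by
  have eL : {x : Fin (n + 2) → ℝ | x ∉ slab β0 β1 ∧ x 0 ≤ β0} = {x | x 0 < β0} := by
    ext x
    constructor
    · rintro ⟨hx, hx0⟩
      refine lt_of_le_of_ne hx0 ?_
      intro heq
      exact hx ⟨heq.ge, heq.le.trans hβ⟩
    · intro hx
      have hx' : x 0 < β0 := hx
      exact ⟨fun hs => absurd hs.1 (not_le.mpr hx'), hx'.le⟩
  have eR : {x : Fin (n + 2) → ℝ | x ∉ slab β0 β1 ∧ β0 < x 0} = {x | β1 < x 0} := by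
    ext x
    constructor
    · rintro ⟨hx, hx0⟩
      by_contra hcon
      exact hx ⟨hx0.le, not_lt.mp hcon⟩
    · intro hx
      have hx' : β1 < x 0 := hx
      exact ⟨fun hs => absurd hs.2 (not_le.mpr hx'), lt_of_le_of_lt hβ hx'⟩
  have c1 := tri_cells ρ (measurableSet_slab β0 β1) β0
  have c2 := tri_cells ρ (measurableSet_wedge p h t) (p 0)
  rw [eL, eR, hL, hR] at c1
  have hfin : ρ {x | x ∉ wedge p h t ∧ x 0 ≤ p 0} + ρ {x | x ∉ wedge p h t ∧ p 0 < x 0} ≠ ⊤ :=
    ENNReal.add_ne_top.mpr ⟨measure_ne_top _ _, measure_ne_top _ _⟩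
  have hq : ρ (slab β0 β1) = ρ (wedge p h t) :=
    (ENNReal.add_left_inj hfin).mp (c1.trans c2.symm)
  refine ⟨hq, ?_⟩
  apply map_eq_of_fibres ρ (measurable_tri (measurableSet_slab β0 β1) β0 (yN t))
    (measurable_tri (measurableSet_wedge p h t) (p 0) (yN t))
    ({yN t, yL, yR} : Finset (Fin (n + 2) → ℝ)) (fun x => tri_mem _ _ _ x)
    (fun x => tri_mem _ _ _ x)
  intro q hq'
  have hq'' : q = yN t ∨ q = yL ∨ q = yR := by simpa using hq'
  rcases hq'' with rfl | rfl | rfl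
  · rw [tri_preimage_q β0 (yN_ne_yL t) (yN_ne_yR t),
      tri_preimage_q (p 0) (yN_ne_yL t) (yN_ne_yR t)]
    exact hq
  · rw [tri_preimage_L β0 (yN_ne_yL t), tri_preimage_L (p 0) (yN_ne_yL t), eL]
    exact hL
  · rw [tri_preimage_R β0 (yN_ne_yR t), tri_preimage_R (p 0) (yN_ne_yR t), eR]
    exact hR

lemma yL_mem_Icc : (yL : Fin (n + 2) → ℝ) ∈ Set.Icc (-1 : Fin (n + 2) → ℝ) 1 := by
  constructor <;> intro i <;> simp only [yL, Pi.single_apply, Pi.neg_apply, Pi.one_apply] <;>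
    split_ifs <;> norm_num

lemma yR_mem_Icc : (yR : Fin (n + 2) → ℝ) ∈ Set.Icc (-1 : Fin (n + 2) → ℝ) 1 := by
  constructor <;> intro i <;> simp only [yR, Pi.single_apply, Pi.neg_apply, Pi.one_apply] <;>
    split_ifs <;> norm_num

lemma yN_mem_Icc (t : ℝ) (h0 : -1 ≤ t) (h1 : t ≤ 1) :
    (yN t : Fin (n + 2) → ℝ) ∈ Set.Icc (-1 : Fin (n + 2) → ℝ) 1 := by
  constructor <;> intro i <;> simp only [yN, Pi.single_apply, Pi.neg_apply, Pi.one_apply] <;>
    split_ifs <;> first | assumption | norm_num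

lemma zero_mem_Icc : (0 : Fin (n + 2) → ℝ) ∈ Set.Icc (-1 : Fin (n + 2) → ℝ) 1 := by
  constructor <;> intro i <;> simp

lemma tri_mem_Icc (A : Set (Fin (n + 2) → ℝ)) (c : ℝ) {q : Fin (n + 2) → ℝ}
    (hq : q ∈ Set.Icc (-1 : Fin (n + 2) → ℝ) 1) (x : Fin (n + 2) → ℝ) :
    tri A c q x ∈ Set.Icc (-1 : Fin (n + 2) → ℝ) 1 := by
  unfold tri
  split_ifs
  · exact hq
  · exact yL_mem_Icc
  · exact yR_mem_Icc

lemma sqDist_le_of_mem_Icc {a b : Fin (n + 2) → ℝ}
    (ha : a ∈ Set.Icc (-1 : Fin (n + 2) → ℝ) 1) (hb : b ∈ Set.Icc (-1 : Fin (n + 2) → ℝ) 1) :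
    sqDist a b ≤ 4 * (n + 2) := by
  unfold sqDist
  have h : ∀ i ∈ (Finset.univ : Finset (Fin (n + 2))), (a i - b i) ^ 2 ≤ 4 := by
    intro i _
    have h1 := ha.1 i
    have h2 := ha.2 i
    have h3 := hb.1 i
    have h4 := hb.2 i
    simp only [Pi.neg_apply, Pi.one_apply] at h1 h2 h3 h4
    nlinarith
  have h5 := Finset.sum_le_card_nsmul _ _ _ h
  rw [Finset.card_univ, Fintype.card_fin, nsmul_eq_mul] at h5
  push_cast at h5
  linarith

/-- The push-forward under a three-valued map with sites in the cube is carried by the cube. -/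
lemma map_tri_support (ρ : Measure (Fin (n + 2) → ℝ)) {A : Set (Fin (n + 2) → ℝ)}
    (hA : MeasurableSet A) (c : ℝ) {q : Fin (n + 2) → ℝ}
    (hq : q ∈ Set.Icc (-1 : Fin (n + 2) → ℝ) 1) :
    (ρ.map (tri A c q)) (Set.Icc (-1 : Fin (n + 2) → ℝ) 1)ᶜ = 0 := by
  rw [Measure.map_apply (measurable_tri hA c q) measurableSet_Icc.compl]
  have e : tri A c q ⁻¹' (Set.Icc (-1 : Fin (n + 2) → ℝ) 1)ᶜ = ∅ := by
    apply Set.eq_empty_of_forall_notMem
    intro x hx
    exact hx (tri_mem_Icc A c hq x)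
  rw [e]
  exact measure_empty

/-- The `L^2` distance of two three-valued maps with sites in the cube is finite. -/
lemma lintegral_tri_lt_top (ρ : Measure (Fin (n + 2) → ℝ)) [IsFiniteMeasure ρ]
    (A A' : Set (Fin (n + 2) → ℝ)) (c c' : ℝ) {q q' : Fin (n + 2) → ℝ}
    (hq : q ∈ Set.Icc (-1 : Fin (n + 2) → ℝ) 1) (hq' : q' ∈ Set.Icc (-1 : Fin (n + 2) → ℝ) 1) :
    ∫⁻ x, ENNReal.ofReal (sqDist (tri A c q x) (tri A' c' q' x)) ∂ρ < ⊤ := by
  have hle : ∫⁻ x, ENNReal.ofReal (sqDist (tri A c q x) (tri A' c' q' x)) ∂ρ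
      ≤ ∫⁻ _, ENNReal.ofReal (4 * (n + 2)) ∂ρ :=
    lintegral_mono fun x => ENNReal.ofReal_le_ofReal
      (sqDist_le_of_mem_Icc (tri_mem_Icc A c hq x) (tri_mem_Icc A' c' hq' x))
  rw [lintegral_const] at hle
  exact lt_of_le_of_lt hle (ENNReal.mul_lt_top ENNReal.ofReal_lt_top (measure_lt_top ρ _))

/-- Coupling bound for the two slab maps. -/
lemma W2sq_slab_le (ρ : Measure (Fin (n + 2) → ℝ)) (β0 β1 t : ℝ) :
    W2sq (ρ.map (tri (slab β0 β1) β0 0)) (ρ.map (tri (slab β0 β1) β0 (yN t)))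
      ≤ ENNReal.ofReal (t ^ 2) * ρ (slab β0 β1) := by
  refine (W2sq_le_of_maps ρ (measurable_tri (measurableSet_slab β0 β1) β0 0)
    (measurable_tri (measurableSet_slab β0 β1) β0 (yN t))).trans ?_
  rw [← lintegral_indicator_const (measurableSet_slab β0 β1)]
  apply lintegral_mono
  intro x
  by_cases hx : x ∈ slab β0 β1
  · simp only [tri, if_pos hx, Set.indicator_of_mem hx]
    rw [sqDist_zero_yN]
  · simp only [tri, if_neg hx, Set.indicator_of_notMem hx]
    rw [sqDist_self]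
    simp

/-- The slab map and the wedge map differ by distance one below the apex of the wedge. -/
lemma lintegral_wedge_ge (ρ : Measure (Fin (n + 2) → ℝ)) (p : Fin (n + 2) → ℝ)
    (h t β0 β1 : ℝ) (ht0 : 0 < t) :
    ρ (slab β0 β1 ∩ {x | x 1 < h})
      ≤ ∫⁻ x, ENNReal.ofReal
        (sqDist (tri (slab β0 β1) β0 0 x) (tri (wedge p h t) (p 0) (yN t) x)) ∂ρ := by
  have hm : MeasurableSet (slab β0 β1 ∩ {x : Fin (n + 2) → ℝ | x 1 < h}) :=
    (measurableSet_slab β0 β1).inter (measurableSet_lt (measurable_pi_apply 1) measurable_const)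
  rw [← lintegral_indicator_one hm]
  apply lintegral_mono
  intro x
  by_cases hx : x ∈ slab β0 β1 ∩ {x : Fin (n + 2) → ℝ | x 1 < h}
  · rw [Set.indicator_of_mem hx]
    have hxw : x ∉ wedge p h t := by
      intro hw
      have hw' : |x 0 - p 0| ≤ t * (x 1 - h) := hw
      have h1 : x 1 < h := hx.2
      have h2 := abs_nonneg (x 0 - p 0)
      nlinarith
    have e1 : tri (slab β0 β1) β0 0 x = 0 := by simp [tri, hx.1]
    show (1 : ENNReal) ≤ ENNReal.ofReal
      (sqDist (tri (slab β0 β1) β0 0 x) (tri (wedge p h t) (p 0) (yN t) x))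
    rw [e1]
    unfold tri
    rw [if_neg hxw]
    split_ifs
    · rw [sqDist_zero_yL]; simp
    · rw [sqDist_zero_yR]; simp
  · rw [Set.indicator_of_notMem hx]
    exact zero_le

end

end Vale.Agent.Helper6.P074
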