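import Vale.Agent.Helper6.P074Ex

/-!
# No stability exponent above 1/3 for any compact source domain with nonempty interior
-/

namespace Vale.Agent.Helper6.P074

open MeasureTheory Vale.Agent.Helper16.OT
open Classical

/-- For `α > 1/3` the quantity `C * sqrt (B t^3) ^ α` drops below `sqrt (A t)` for small `t`. -/
lemma exists_small (A B t0 α C : ℝ) (hA : 0 < A) (hB : 0 < B) (ht0 : 0 < t0)
    (hα : 1 / 3 < α) :
    ∃ t : ℝ, 0 < t ∧ t ≤ t0 ∧ C * Real.sqrt (B * t ^ 3) ^ α < Real.sqrt (A * t) := by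
  set β : ℝ := (3 * α - 1) / 2 with hβ
  have hβpos : 0 < β := by rw [hβ]; linarith
  set K1 : ℝ := |C| * B ^ (α / 2) with hK1
  have hK1nn : 0 ≤ K1 := mul_nonneg (abs_nonneg C) (Real.rpow_nonneg hB.le _)
  set ε : ℝ := Real.sqrt A / (K1 + 1) with hε
  have hsA : 0 < Real.sqrt A := Real.sqrt_pos.mpr hA
  have hεpos : 0 < ε := by rw [hε]; positivity
  set t : ℝ := min t0 (ε ^ (1 / β)) with ht
  have hε' : 0 < ε ^ (1 / β) := Real.rpow_pos_of_pos hεpos _
  have htpos : 0 < t := lt_min ht0 hε'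
  have htβ : t ^ β ≤ ε := by
    calc t ^ β ≤ (ε ^ (1 / β)) ^ β := Real.rpow_le_rpow htpos.le (min_le_right _ _) hβpos.le
      _ = ε := by
          rw [← Real.rpow_mul hεpos.le, one_div, inv_mul_cancel₀ hβpos.ne', Real.rpow_one]
  refine ⟨t, htpos, min_le_left _ _, ?_⟩
  have e1 : Real.sqrt (B * t ^ 3) ^ α = B ^ (α / 2) * (Real.sqrt t * t ^ β) := by
    rw [Real.sqrt_eq_rpow, Real.sqrt_eq_rpow, ← Real.rpow_mul (by positivity),
      Real.mul_rpow hB.le (by positivity), ← Real.rpow_natCast t 3, ← Real.rpow_mul htpos.le,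
      ← Real.rpow_add htpos]
    congr 2
    · ring
    · rw [hβ]; push_cast; ring
  have e2 : Real.sqrt (A * t) = Real.sqrt A * Real.sqrt t := Real.sqrt_mul hA.le t
  have hst : 0 < Real.sqrt t := Real.sqrt_pos.mpr htpos
  have hKε : K1 * ε < Real.sqrt A := by
    rw [hε, ← mul_div_assoc, div_lt_iff₀ (by linarith)]
    nlinarith
  have hpow0 : 0 ≤ Real.sqrt (B * t ^ 3) ^ α := Real.rpow_nonneg (Real.sqrt_nonneg _) _
  calc C * Real.sqrt (B * t ^ 3) ^ α ≤ |C| * Real.sqrt (B * t ^ 3) ^ α :=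
        mul_le_mul_of_nonneg_right (le_abs_self C) hpow0
    _ = K1 * t ^ β * Real.sqrt t := by rw [e1, hK1]; ring
    _ ≤ K1 * ε * Real.sqrt t := by
        apply mul_le_mul_of_nonneg_right _ hst.le
        exact mul_le_mul_of_nonneg_left htβ hK1nn
    _ < Real.sqrt A * Real.sqrt t := mul_lt_mul_of_pos_right hKε hst
    _ = Real.sqrt (A * t) := e2.symm

/-- Every compact set with nonempty interior lies between two concentric cubes. -/
lemma exists_sandwich {n : ℕ} (K : Set (Fin (n + 2) → ℝ)) (hK : IsCompact K)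
    (hint : (interior K).Nonempty) :
    ∃ (p : Fin (n + 2) → ℝ) (r R : ℝ), Sandwich K p r R := by
  obtain ⟨p, hp⟩ := hint
  rw [mem_interior_iff_mem_nhds, Metric.mem_nhds_iff] at hp
  obtain ⟨ε, hε, hball⟩ := hp
  obtain ⟨R0, hR0⟩ := hK.isBounded.subset_closedBall p
  refine ⟨p, ε / 2, max R0 (ε / 2), hK.measurableSet, by linarith, le_max_right _ _, ?_, ?_⟩
  · intro x hx
    apply hball
    rw [Metric.mem_ball]
    have h1 : dist x p ≤ ε / 2 := by
      rw [dist_pi_le_iff (by linarith)]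
      intro i
      rw [Real.dist_eq]
      exact hx i
    linarith
  · intro x hx i
    have h1 : dist x p ≤ R0 := Metric.mem_closedBall.mp (hR0 hx)
    have h2 : dist (x i) (p i) ≤ dist x p := dist_le_pi_dist x p i
    rw [Real.dist_eq] at h2
    exact h2.trans (h1.trans (le_max_left _ _))

/-- For every compact `K ⊆ R^d` (`d ≥ 2`) with nonempty interior and every `α > 1/3` there is
no constant `C` with `‖S - T‖_{L^2(ρ)} ≤ C * W_2(μ, ν) ^ α` for all probability measures `μ`,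
`ν` carried by `[-1, 1]^d` and optimal maps `S`, `T` from the uniform measure on `K`. -/
theorem no_exponent_above_third (d : ℕ) (hd : 2 ≤ d) (K : Set (Fin d → ℝ)) (hK : IsCompact K)
    (hint : (interior K).Nonempty) (α : ℝ) (hα : 1 / 3 < α) :
    ¬ ∃ C : ℝ, ∀ μ ν : Measure (Fin d → ℝ),
      IsProbabilityMeasure μ → IsProbabilityMeasure ν →
      μ (Set.Icc (-1) 1)ᶜ = 0 → ν (Set.Icc (-1) 1)ᶜ = 0 →
      ∀ S T : (Fin d → ℝ) → (Fin d → ℝ),
        IsOptMap (unif K) μ S → IsOptMap (unif K) ν T →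
        L2dist (unif K) S T ≤ C * W2 μ ν ^ α := by
  obtain ⟨n, rfl⟩ : ∃ n, d = n + 2 := ⟨d - 2, by omega⟩
  rintro ⟨C, hC⟩
  obtain ⟨p, r, R, hS⟩ := exists_sandwich K hK hint
  obtain ⟨A, B, hA, hB, hex⟩ := example_bounds_gen hS
  have hr := hS.rpos
  have hR := hS.Rpos
  obtain ⟨t, ht0, htle, hlt⟩ := exists_small A B (min 1 (r / (2 * R))) α |C| hA hB
    (lt_min one_pos (by positivity)) hα
  have ht1 : t ≤ 1 := htle.trans (min_le_left _ _)
  have htr : 2 * R * t ≤ r := by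
    have h1 : t ≤ r / (2 * R) := htle.trans (min_le_right _ _)
    rw [le_div_iff₀ (by positivity)] at h1
    linarith
  obtain ⟨μ, ν, S, T, hμ, hν, hμY, hνY, hSopt, hTopt, hL, hW, _⟩ := hex t ht0 ht1 htr
  have h := hC μ ν hμ hν hμY hνY S T hSopt hTopt
  have hW0 : 0 ≤ W2 μ ν := Real.sqrt_nonneg _
  have hα0 : 0 ≤ α := by linarith
  have hpow : W2 μ ν ^ α ≤ Real.sqrt (B * t ^ 3) ^ α := Real.rpow_le_rpow hW0 hW hα0
  have hCW : C * W2 μ ν ^ α ≤ |C| * Real.sqrt (B * t ^ 3) ^ α := by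
    calc C * W2 μ ν ^ α ≤ |C| * W2 μ ν ^ α :=
          mul_le_mul_of_nonneg_right (le_abs_self C) (Real.rpow_nonneg hW0 α)
      _ ≤ |C| * Real.sqrt (B * t ^ 3) ^ α := mul_le_mul_of_nonneg_left hpow (abs_nonneg C)
  linarith

/-- `sqrt (B t^3) ^ (1/3) = B ^ (1/6) * sqrt t`. -/
lemma sqrt_cube_rpow_third (B t : ℝ) (hB : 0 < B) (ht : 0 < t) :
    Real.sqrt (B * t ^ 3) ^ (1 / 3 : ℝ) = B ^ (1 / 6 : ℝ) * Real.sqrt t := by
  rw [Real.sqrt_eq_rpow, Real.sqrt_eq_rpow, ← Real.rpow_mul (by positivity),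
    Real.mul_rpow hB.le (by positivity), ← Real.rpow_natCast t 3, ← Real.rpow_mul ht.le]
  congr 2 <;> norm_num

/-- The sharp-rate form: for every compact `K ⊆ R^d` (`d ≥ 2`) with nonempty interior there is
`c > 0` such that arbitrarily close pairs of targets `μ`, `ν` carried by `[-1, 1]^d` have optimal
maps `S`, `T` from the uniform measure on `K` with `‖S - T‖_{L^2(ρ)} ≥ c * W_2(μ, ν) ^ (1/3)`. -/
theorem cube_root_rate (d : ℕ) (hd : 2 ≤ d) (K : Set (Fin d → ℝ)) (hK : IsCompact K)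
    (hint : (interior K).Nonempty) :
    ∃ c : ℝ, 0 < c ∧ ∀ ε : ℝ, 0 < ε →
      ∃ (μ ν : Measure (Fin d → ℝ)) (S T : (Fin d → ℝ) → (Fin d → ℝ)),
        IsProbabilityMeasure μ ∧ IsProbabilityMeasure ν ∧
        μ (Set.Icc (-1) 1)ᶜ = 0 ∧ ν (Set.Icc (-1) 1)ᶜ = 0 ∧
        IsOptMap (unif K) μ S ∧ IsOptMap (unif K) ν T ∧
        0 < W2 μ ν ∧ W2 μ ν ≤ ε ∧ c * W2 μ ν ^ (1 / 3 : ℝ) ≤ L2dist (unif K) S T := by
  obtain ⟨n, rfl⟩ : ∃ n, d = n + 2 := ⟨d - 2, by omega⟩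
  obtain ⟨p, r, R, hS⟩ := exists_sandwich K hK hint
  obtain ⟨A, B, hA, hB, hex⟩ := example_bounds_gen hS
  have hr := hS.rpos
  have hR := hS.Rpos
  have hB6 : 0 < B ^ (1 / 6 : ℝ) := Real.rpow_pos_of_pos hB _
  refine ⟨Real.sqrt A / B ^ (1 / 6 : ℝ), div_pos (Real.sqrt_pos.mpr hA) hB6, ?_⟩
  intro ε hε
  set t : ℝ := min (min 1 (r / (2 * R))) (ε ^ 2 / B) with ht
  have ht0 : 0 < t := lt_min (lt_min one_pos (by positivity)) (by positivity)
  have ht1 : t ≤ 1 := (min_le_left _ _).trans (min_le_left _ _)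
  have htr : 2 * R * t ≤ r := by
    have h1 : t ≤ r / (2 * R) := (min_le_left _ _).trans (min_le_right _ _)
    rw [le_div_iff₀ (by positivity)] at h1
    linarith
  have htε : B * t ^ 3 ≤ ε ^ 2 := by
    have h1 : t ≤ ε ^ 2 / B := min_le_right _ _
    rw [le_div_iff₀ hB] at h1
    have h2 : t ^ 3 ≤ t := by
      nlinarith [mul_nonneg ht0.le (mul_nonneg ht0.le (sub_nonneg.mpr ht1)),
        mul_nonneg ht0.le (sub_nonneg.mpr ht1)]
    have h3 := mul_le_mul_of_nonneg_left h2 hB.le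
    linarith
  obtain ⟨μ, ν, S, T, hμ, hν, hμY, hνY, hSopt, hTopt, hL, hW, hWpos⟩ := hex t ht0 ht1 htr
  refine ⟨μ, ν, S, T, hμ, hν, hμY, hνY, hSopt, hTopt, hWpos, ?_, ?_⟩
  · calc W2 μ ν ≤ Real.sqrt (B * t ^ 3) := hW
      _ ≤ Real.sqrt (ε ^ 2) := Real.sqrt_le_sqrt htε
      _ = ε := Real.sqrt_sq hε.le
  · have h1 : W2 μ ν ^ (1 / 3 : ℝ) ≤ Real.sqrt (B * t ^ 3) ^ (1 / 3 : ℝ) :=
      Real.rpow_le_rpow hWpos.le hW (by norm_num)
    rw [sqrt_cube_rpow_third B t hB ht0] at h1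
    calc Real.sqrt A / B ^ (1 / 6 : ℝ) * W2 μ ν ^ (1 / 3 : ℝ)
        ≤ Real.sqrt A / B ^ (1 / 6 : ℝ) * (B ^ (1 / 6 : ℝ) * Real.sqrt t) :=
          mul_le_mul_of_nonneg_left h1 (by positivity)
      _ = Real.sqrt A * Real.sqrt t := by field_simp
      _ = Real.sqrt (A * t) := (Real.sqrt_mul hA.le t).symm
      _ ≤ L2dist (unif K) S T := hL

end Vale.Agent.Helper6.P074
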