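import Vale.Agent.Helper6.P074Low

/-!
# The three-atom example for a set between two concentric cubes

For `K` between the cubes of radii `r ≤ R` about `p` and every small `t > 0` there are two
three-atom targets in `[-1, 1]^(n+2)` whose optimal maps from the uniform measure on `K`
differ by at least `sqrt (A t)` in `L^2` while the targets are within `sqrt (B t^3)` in `W_2`.
-/

namespace Vale.Agent.Helper6.P074

open MeasureTheory Vale.Agent.Helper16.OT
open Classical

variable {n : ℕ} {K : Set (Fin (n + 2) → ℝ)} {p : Fin (n + 2) → ℝ} {r R : ℝ}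

theorem example_bounds_gen (hS : Sandwich K p r R) :
    ∃ A B : ℝ, 0 < A ∧ 0 < B ∧ ∀ t : ℝ, 0 < t → t ≤ 1 → 2 * R * t ≤ r →
      ∃ (μ ν : Measure (Fin (n + 2) → ℝ)) (S T : (Fin (n + 2) → ℝ) → (Fin (n + 2) → ℝ)),
        IsProbabilityMeasure μ ∧ IsProbabilityMeasure ν ∧
        μ (Set.Icc (-1) 1)ᶜ = 0 ∧ ν (Set.Icc (-1) 1)ᶜ = 0 ∧
        IsOptMap (unif K) μ S ∧ IsOptMap (unif K) ν T ∧
        Real.sqrt (A * t) ≤ L2dist (unif K) S T ∧ W2 μ ν ≤ Real.sqrt (B * t ^ 3) ∧
        0 < W2 μ ν := by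
  have hr := hS.rpos
  have hR := hS.Rpos
  have hLam := hS.Lam_pos
  have hlam := hS.lam_pos
  have hprob := hS.isProb
  refine ⟨r * r * lam K r / Lam K R * (r / 4 * lam K r), 4 * R * Lam K R, by positivity,
    by positivity, ?_⟩
  intro t ht0 ht1 htr
  set h : ℝ := p 1 - r / 2 with hh
  -- the wedge bound inside K
  have key : ∀ x ∈ K, t * (x 1 - h) ≤ 2 * R * t := by
    intro x hx
    have h1 := (abs_le.mp (hS.out x hx 1)).2
    have h2 : x 1 - h ≤ 2 * R := by rw [hh]; linarith [hS.rR]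
    have h3 := mul_le_mul_of_nonneg_left h2 ht0.le
    linarith
  have hM := measurableSet_wedge p h t
  have htr2 : t * r ≤ r := by nlinarith
  have htr0 : 0 < t * r := by positivity
  -- mass of the wedge
  have hMlo : ENNReal.ofReal (t * r * r * lam K r) ≤ unif K (wedge p h t) := by
    have h1 := hS.box_le hM (p 0 - t * r / 2) (p 0 + t * r / 2) (p 1) (p 1 + r) (by linarith)
      (by linarith) (by linarith) (by linarith) (by linarith) (by linarith) ?_
    · have e : (p 0 + t * r / 2 - (p 0 - t * r / 2)) * (p 1 + r - p 1) * lam K r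
          = t * r * r * lam K r := by ring
      rwa [e] at h1
    · intro x h1 h2 h3 _
      show |x 0 - p 0| ≤ t * (x 1 - h)
      rw [abs_le]
      have h5 : t * (r / 2) ≤ t * (x 1 - h) :=
        mul_le_mul_of_nonneg_left (by rw [hh]; linarith) ht0.le
      constructor <;> linarith
  have hMhi : unif K (wedge p h t) ≤ ENNReal.ofReal (4 * R * t * Lam K R) := by
    have h1 := hS.slab_le hM (p 0 - 2 * R * t) (p 0 + 2 * R * t) (by nlinarith) ?_
    · have e : (p 0 + 2 * R * t - (p 0 - 2 * R * t)) * Lam K R = 4 * R * t * Lam K R := by ring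
      rwa [e] at h1
    · intro x hx hxK
      have hx' : |x 0 - p 0| ≤ t * (x 1 - h) := hx
      have h1 := abs_le.mp (hx'.trans (key x hxK))
      constructor <;> linarith [h1.1, h1.2]
  -- side cells
  have hlo : unif K {x | x 0 < p 0 - r} ≤ unif K {x | x ∉ wedge p h t ∧ x 0 ≤ p 0} := by
    apply unif_mono_on K (measurableSet_coord_lt _)
    rintro x ⟨hx, hxK⟩
    have hx' : x 0 < p 0 - r := hx
    refine ⟨?_, by linarith⟩
    intro hw
    have hw' : |x 0 - p 0| ≤ t * (x 1 - h) := hw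
    have h1 := (abs_le.mp (hw'.trans (key x hxK))).1
    linarith
  have hhi : unif K {x | x ∉ wedge p h t ∧ x 0 ≤ p 0} ≤ unif K {x | x 0 < p 0 + r} :=
    measure_mono (fun x hx => by
      have h1 : x 0 ≤ p 0 := hx.2
      show x 0 < p 0 + r
      linarith)
  have hlo' : unif K {x | p 0 + r < x 0} ≤ unif K {x | x ∉ wedge p h t ∧ p 0 < x 0} := by
    apply unif_mono_on K (measurableSet_coord_gt _)
    rintro x ⟨hx, hxK⟩
    have hx' : p 0 + r < x 0 := hx
    refine ⟨?_, by linarith⟩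
    intro hw
    have hw' : |x 0 - p 0| ≤ t * (x 1 - h) := hw
    have h1 := (abs_le.mp (hw'.trans (key x hxK))).2
    linarith
  have hhi' : unif K {x | x ∉ wedge p h t ∧ p 0 < x 0} ≤ unif K {x | p 0 - r < x 0} :=
    measure_mono (fun x hx => by
      have h1 : p 0 < x 0 := hx.2
      show p 0 - r < x 0
      linarith)
  obtain ⟨β0, hβ0a, hβ0b, hβ0⟩ := hS.exists_left _ hlo hhi
  obtain ⟨β1, hβ1a, hβ1b, hβ1⟩ := hS.exists_right _ hlo' hhi'
  have hβ : β0 ≤ β1 := by
    by_contra hcon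
    have hcon' : β1 < β0 := not_le.mp hcon
    have hcov : (Set.univ : Set (Fin (n + 2) → ℝ)) ⊆ {x | x 0 < β0} ∪ {x | β1 < x 0} := by
      intro x _
      by_cases hx : x 0 < β0
      · exact Or.inl hx
      · exact Or.inr (lt_of_lt_of_le hcon' (not_lt.mp hx))
    have h1 : (1 : ENNReal) ≤ unif K {x | x ∉ wedge p h t ∧ x 0 ≤ p 0}
        + unif K {x | x ∉ wedge p h t ∧ p 0 < x 0} := by
      rw [← hβ0, ← hβ1, ← measure_univ (μ := unif K)]
      exact (measure_mono hcov).trans (measure_union_le _ _)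
    have c2 := tri_cells (unif K) hM (p 0)
    rw [measure_univ] at c2
    have hfin : unif K {x | x ∉ wedge p h t ∧ x 0 ≤ p 0}
        + unif K {x | x ∉ wedge p h t ∧ p 0 < x 0} ≠ ⊤ :=
      ENNReal.add_ne_top.mpr ⟨measure_ne_top _ _, measure_ne_top _ _⟩
    have h2 : unif K (wedge p h t) + (unif K {x | x ∉ wedge p h t ∧ x 0 ≤ p 0}
        + unif K {x | x ∉ wedge p h t ∧ p 0 < x 0})
        ≤ 0 + (unif K {x | x ∉ wedge p h t ∧ x 0 ≤ p 0}
          + unif K {x | x ∉ wedge p h t ∧ p 0 < x 0}) := by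
      rw [c2, zero_add]; exact h1
    have h3 : unif K (wedge p h t) ≤ 0 := (ENNReal.add_le_add_iff_right hfin).mp h2
    have h4 : 0 < ENNReal.ofReal (t * r * r * lam K r) := ENNReal.ofReal_pos.mpr (by positivity)
    exact absurd (lt_of_lt_of_le h4 (hMlo.trans h3)) (lt_irrefl _)
  obtain ⟨hSM, hmap⟩ := map_tri_eq (unif K) p h t β0 β1 hβ hβ0 hβ1
  -- the maps
  have hyN : (yN t : Fin (n + 2) → ℝ) ∈ Set.Icc (-1 : Fin (n + 2) → ℝ) 1 :=
    yN_mem_Icc t (by linarith) ht1
  have h0 : (0 : Fin (n + 2) → ℝ) ∈ Set.Icc (-1 : Fin (n + 2) → ℝ) 1 := zero_mem_Icc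
  have hmsl : MeasurableSet (slab β0 β1 : Set (Fin (n + 2) → ℝ)) := measurableSet_slab β0 β1
  have hmS := measurable_tri hmsl β0 (0 : Fin (n + 2) → ℝ)
  have hmT := measurable_tri hM (p 0) (yN t)
  have hWle : W2sq ((unif K).map (tri (slab β0 β1) β0 0))
      ((unif K).map (tri (wedge p h t) (p 0) (yN t)))
      ≤ ENNReal.ofReal (4 * R * Lam K R * t ^ 3) := by
    have h1 := W2sq_slab_le (unif K) β0 β1 t
    rw [hmap] at h1
    have h2 : ENNReal.ofReal (t ^ 2) * unif K (slab β0 β1)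
        ≤ ENNReal.ofReal (4 * R * Lam K R * t ^ 3) := by
      rw [hSM]
      calc ENNReal.ofReal (t ^ 2) * unif K (wedge p h t)
          ≤ ENNReal.ofReal (t ^ 2) * ENNReal.ofReal (4 * R * t * Lam K R) := by gcongr
        _ = ENNReal.ofReal (4 * R * Lam K R * t ^ 3) := by
            rw [← ENNReal.ofReal_mul (by positivity)]; congr 1; ring
    exact h1.trans h2
  have hWpos : 0 < W2sq ((unif K).map (tri (slab β0 β1) β0 0))
      ((unif K).map (tri (wedge p h t) (p 0) (yN t))) := by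
    have h1 := W2sq_slab_ge (unif K) β0 β1 t (by nlinarith) hM (p 0)
    have h2 : 0 < ENNReal.ofReal (t ^ 2) * unif K (slab β0 β1) := by
      rw [hSM]
      exact ENNReal.mul_pos (ENNReal.ofReal_pos.mpr (by positivity)).ne'
        (lt_of_lt_of_le (ENNReal.ofReal_pos.mpr (by positivity)) hMlo).ne'
    exact lt_of_lt_of_le h2 h1
  refine ⟨(unif K).map (tri (slab β0 β1) β0 0), (unif K).map (tri (wedge p h t) (p 0) (yN t)),
    tri (slab β0 β1) β0 0, tri (wedge p h t) (p 0) (yN t),
    Measure.isProbabilityMeasure_map hmS.aemeasurable,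
    Measure.isProbabilityMeasure_map hmT.aemeasurable,
    map_tri_support _ hmsl β0 h0, map_tri_support _ hM (p 0) hyN,
    isOptMap_slab _ β0 β1 hβ, isOptMap_wedge _ p h t ht0 ht1, ?_, ?_, ?_⟩
  · -- L2 lower bound
    unfold L2dist
    apply Real.sqrt_le_sqrt
    have hfin := lintegral_tri_lt_top (unif K) (slab β0 β1) (wedge p h t) β0 (p 0) h0 hyN
    have hge := lintegral_wedge_ge (unif K) p h t β0 β1 ht0
    have hbox : ENNReal.ofReal ((β1 - β0) * (r / 4) * lam K r)
        ≤ unif K (slab β0 β1 ∩ {x | x 1 < h}) := by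
      have hmlow : MeasurableSet (slab β0 β1 ∩ {x : Fin (n + 2) → ℝ | x 1 < h}) :=
        hmsl.inter (measurableSet_lt (measurable_pi_apply 1) measurable_const)
      have h1 := hS.box_le hmlow β0 β1 (p 1 - r) (p 1 - 3 * r / 4) hβ (by linarith) hβ0a hβ1b (by linarith)
        (by linarith) ?_
      · have e : (β1 - β0) * (p 1 - 3 * r / 4 - (p 1 - r)) * lam K r
            = (β1 - β0) * (r / 4) * lam K r := by ring
        rwa [e] at h1
      · intro x h1 h2 _ h4
        refine ⟨⟨h1, h2⟩, ?_⟩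
        show x 1 < h
        rw [hh]; linarith
    have hw : t * r * r * lam K r ≤ (β1 - β0) * Lam K R := by
      have h1 : unif K (slab β0 β1) ≤ ENNReal.ofReal ((β1 - β0) * Lam K R) :=
        hS.slab_le hmsl β0 β1 hβ (fun x hx _ => hx)
      rw [hSM] at h1
      exact (ENNReal.ofReal_le_ofReal_iff (mul_nonneg (sub_nonneg.mpr hβ) hLam.le)).mp
        (hMlo.trans h1)
    have hw' : t * r * r * lam K r / Lam K R ≤ β1 - β0 := by
      rw [div_le_iff₀ hLam]; exact hw
    have hA : r * r * lam K r / Lam K R * (r / 4 * lam K r) * t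
        ≤ (β1 - β0) * (r / 4) * lam K r := by
      calc r * r * lam K r / Lam K R * (r / 4 * lam K r) * t
          = (t * r * r * lam K r / Lam K R) * (r / 4 * lam K r) := by ring
        _ ≤ (β1 - β0) * (r / 4 * lam K r) := mul_le_mul_of_nonneg_right hw' (by positivity)
        _ = (β1 - β0) * (r / 4) * lam K r := by ring
    have h5 : ENNReal.ofReal (r * r * lam K r / Lam K R * (r / 4 * lam K r) * t)
        ≤ ∫⁻ x, ENNReal.ofReal (sqDist (tri (slab β0 β1) β0 0 x)
          (tri (wedge p h t) (p 0) (yN t) x)) ∂(unif K) :=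
      (ENNReal.ofReal_le_ofReal hA).trans (hbox.trans hge)
    exact (ENNReal.ofReal_le_iff_le_toReal hfin.ne).mp h5
  · -- W2 upper bound
    unfold W2
    apply Real.sqrt_le_sqrt
    exact ENNReal.toReal_le_of_le_ofReal (by positivity) hWle
  · -- W2 is positive
    unfold W2
    apply Real.sqrt_pos.mpr
    exact ENNReal.toReal_pos hWpos.ne'
      (ne_top_of_le_ne_top ENNReal.ofReal_ne_top hWle)

end Vale.Agent.Helper6.P074
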