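import Vale.Agent.Helper16.OT.TwoPoint

/-!
# General lemmas for optimal maps with finitely many values

* a potential criterion for optimality of a map to its own push-forward,
* equality of push-forwards of two maps with values in a finite set,
* the coupling bound for the squared Wasserstein distance,
* the uniform measure of boxes.
-/

namespace Vale.Agent.Helper6.P074

open MeasureTheory Vale.Agent.Helper16.OT
open Classical

variable {d : ℕ}

/-- Squared distance to a point with a single nonzero coordinate. -/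
lemma sqDist_single (x : Fin d → ℝ) (j : Fin d) (c : ℝ) :
    sqDist x (Pi.single j c) = sqDist x 0 - 2 * c * x j + c ^ 2 := by
  unfold sqDist
  have h : ∀ i, (x i - (Pi.single j c : Fin d → ℝ) i) ^ 2
      = (x i - (0 : Fin d → ℝ) i) ^ 2 + (if i = j then (- 2 * c * x j + c ^ 2) else 0) := by
    intro i
    by_cases hij : i = j
    · subst hij
      simp only [Pi.single_eq_same, Pi.zero_apply, if_true]
      ring
    · simp [hij]
  simp_rw [h]
  rw [Finset.sum_add_distrib, Finset.sum_ite_eq' Finset.univ j]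
  simp
  ring

/-- Potential criterion: if `ψ` is a bounded nonnegative measurable function on the target and
`|x - T x|^2 + ψ (T x) ≤ |x - y|^2 + ψ y` for all `x` and all `y` in a measurable set `Y`
containing the range of `T`, then `T` is an optimal map from `ρ` to its push-forward. -/
lemma isOptMap_of_potential (ρ : Measure (Fin d → ℝ)) [IsFiniteMeasure ρ]
    (T : (Fin d → ℝ) → (Fin d → ℝ)) (hT : Measurable T)
    (ψ : (Fin d → ℝ) → ℝ) (hψm : Measurable ψ) (hψ0 : ∀ y, 0 ≤ ψ y) (B : ℝ)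
    (hψB : ∀ y, ψ y ≤ B)
    (Y : Set (Fin d → ℝ)) (hY : MeasurableSet Y) (hTY : ∀ x, T x ∈ Y)
    (h : ∀ x, ∀ y ∈ Y, sqDist x (T x) + ψ (T x) ≤ sqDist x y + ψ y) :
    IsOptMap ρ (ρ.map T) T := by
  refine ⟨hT, rfl, ?_⟩
  intro T' hT' hmap
  have hae : ∀ᵐ x ∂ρ, T' x ∈ Y := by
    rw [ae_iff]
    have e : {x | ¬ T' x ∈ Y} = T' ⁻¹' Yᶜ := by ext x; simp
    rw [e, ← Measure.map_apply hT' hY.compl, hmap, Measure.map_apply hT hY.compl]
    have : T ⁻¹' Yᶜ = ∅ := by
      ext x; simp [hTY x]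
    rw [this]; simp
  have hpt : ∀ᵐ x ∂ρ,
      ENNReal.ofReal (sqDist x (T x)) + ENNReal.ofReal (ψ (T x))
        ≤ ENNReal.ofReal (sqDist x (T' x)) + ENNReal.ofReal (ψ (T' x)) := by
    filter_upwards [hae] with x hx
    rw [← ENNReal.ofReal_add (sqDist_nonneg _ _) (hψ0 _),
      ← ENNReal.ofReal_add (sqDist_nonneg _ _) (hψ0 _)]
    exact ENNReal.ofReal_le_ofReal (h x (T' x) hx)
  have hint := lintegral_mono_ae hpt
  have hg : Measurable (fun y => ENNReal.ofReal (ψ y)) := ENNReal.measurable_ofReal.comp hψm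
  have hg1 : Measurable (fun x => ENNReal.ofReal (ψ (T x))) := hg.comp hT
  have hg2 : Measurable (fun x => ENNReal.ofReal (ψ (T' x))) := hg.comp hT'
  rw [lintegral_add_right _ hg1, lintegral_add_right _ hg2] at hint
  have e1 : ∫⁻ x, ENNReal.ofReal (ψ (T' x)) ∂ρ = ∫⁻ x, ENNReal.ofReal (ψ (T x)) ∂ρ := by
    rw [← lintegral_map hg hT', ← lintegral_map hg hT, hmap]
  have hfin : ∫⁻ x, ENNReal.ofReal (ψ (T x)) ∂ρ ≠ ⊤ := by
    have hle : ∫⁻ x, ENNReal.ofReal (ψ (T x)) ∂ρ ≤ ∫⁻ _, ENNReal.ofReal B ∂ρ :=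
      lintegral_mono fun x => ENNReal.ofReal_le_ofReal (hψB _)
    rw [lintegral_const] at hle
    exact ne_top_of_le_ne_top (ENNReal.mul_ne_top ENNReal.ofReal_ne_top (measure_ne_top ρ _)) hle
  rw [e1] at hint
  exact (ENNReal.add_le_add_iff_right hfin).mp hint

/-- Two measurable maps with values in a finite set whose fibres have equal measure have the
same push-forward. -/
lemma map_eq_of_fibres {Ω Z : Type*} [MeasurableSpace Ω] [MeasurableSpace Z]
    [MeasurableSingletonClass Z] (ρ : Measure Ω) {T T' : Ω → Z} (hT : Measurable T)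
    (hT' : Measurable T') (Q : Finset Z) (hQ : ∀ x, T x ∈ Q) (hQ' : ∀ x, T' x ∈ Q)
    (h : ∀ q ∈ Q, ρ (T ⁻¹' {q}) = ρ (T' ⁻¹' {q})) : ρ.map T = ρ.map T' := by
  have key : ∀ (U : Ω → Z), Measurable U → (∀ x, U x ∈ Q) → ∀ s : Set Z, MeasurableSet s →
      ρ (U ⁻¹' s) = ∑ q ∈ Q.filter (fun q => q ∈ s), ρ (U ⁻¹' {q}) := by
    intro U hU hUQ s _
    have e : U ⁻¹' s = ⋃ q ∈ Q.filter (fun q => q ∈ s), U ⁻¹' {q} := by
      ext x
      simp only [Set.mem_preimage, Set.mem_iUnion, Finset.mem_filter, Set.mem_singleton_iff,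
        exists_prop]
      constructor
      · intro hx; exact ⟨U x, ⟨hUQ x, hx⟩, rfl⟩
      · rintro ⟨q, ⟨_, hq⟩, rfl⟩; exact hq
    rw [e]
    apply measure_biUnion_finset
    · intro a _ b _ hab
      apply Set.disjoint_left.mpr
      intro x hxa hxb
      simp only [Set.mem_preimage, Set.mem_singleton_iff] at hxa hxb
      exact hab (hxa.symm.trans hxb)
    · intro q _
      exact hU (measurableSet_singleton q)
  refine Measure.ext fun s hs => ?_
  rw [Measure.map_apply hT hs, Measure.map_apply hT' hs, key T hT hQ s hs, key T' hT' hQ' s hs]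
  apply Finset.sum_congr rfl
  intro q hq
  exact h q (Finset.mem_filter.mp hq).1

/-- The coupling bound: `W_2^2` of two push-forwards of `ρ` is at most the squared `L^2(ρ)`
distance of the maps. -/
lemma W2sq_le_of_maps (ρ : Measure (Fin d → ℝ)) {T1 T2 : (Fin d → ℝ) → (Fin d → ℝ)}
    (h1 : Measurable T1) (h2 : Measurable T2) :
    W2sq (ρ.map T1) (ρ.map T2) ≤ ∫⁻ x, ENNReal.ofReal (sqDist (T1 x) (T2 x)) ∂ρ := by
  have hpair : Measurable (fun x => (T1 x, T2 x)) := h1.prodMk h2
  have hfst : (ρ.map (fun x => (T1 x, T2 x))).map Prod.fst = ρ.map T1 := by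
    rw [Measure.map_map measurable_fst hpair]; rfl
  have hsnd : (ρ.map (fun x => (T1 x, T2 x))).map Prod.snd = ρ.map T2 := by
    rw [Measure.map_map measurable_snd hpair]; rfl
  unfold W2sq
  refine iInf_le_of_le ⟨ρ.map (fun x => (T1 x, T2 x)), hfst, hsnd⟩ ?_
  simp only
  rw [lintegral_map measurable_sqDist_pair hpair]

end Vale.Agent.Helper6.P074
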