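import Vale.Agent.Helper6.P074Gen

/-!
# The uniform measure of a bounded set containing a cube: slabs and boxes

`K` is a measurable subset of `R^(n+2)` with `cube(p, r) ⊆ K ⊆ cube(p, R)`.
-/

namespace Vale.Agent.Helper6.P074

open MeasureTheory Vale.Agent.Helper16.OT
open Classical

variable {n : ℕ}

/-- Volume of a box with two distinguished coordinates. -/
lemma vol_box (a0 b0 a1 b1 : ℝ) (lo hi : Fin n → ℝ) :
    volume (Set.Icc (Fin.cons a0 (Fin.cons a1 lo) : Fin (n + 2) → ℝ)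
      (Fin.cons b0 (Fin.cons b1 hi)))
      = ENNReal.ofReal (b0 - a0) * (ENNReal.ofReal (b1 - a1)
        * ∏ i, ENNReal.ofReal (hi i - lo i)) := by
  rw [Real.volume_Icc_pi, Fin.prod_univ_succ, Fin.prod_univ_succ]
  simp

/-- Membership in a box with two distinguished coordinates. -/
lemma mem_box (a0 b0 a1 b1 : ℝ) (lo hi : Fin n → ℝ) (x : Fin (n + 2) → ℝ) :
    x ∈ Set.Icc (Fin.cons a0 (Fin.cons a1 lo) : Fin (n + 2) → ℝ) (Fin.cons b0 (Fin.cons b1 hi))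
      ↔ (a0 ≤ x 0 ∧ x 0 ≤ b0) ∧ (a1 ≤ x 1 ∧ x 1 ≤ b1)
        ∧ ∀ i : Fin n, lo i ≤ x i.succ.succ ∧ x i.succ.succ ≤ hi i := by
  rw [Set.mem_Icc, Pi.le_def, Pi.le_def, Fin.forall_fin_succ, Fin.forall_fin_succ,
    Fin.forall_fin_succ, Fin.forall_fin_succ]
  simp only [Fin.cons_zero, Fin.cons_succ]
  have h1 : (Fin.succ (0 : Fin (n + 1)) : Fin (n + 2)) = 1 := rfl
  rw [h1]
  constructor
  · rintro ⟨⟨h1, h2, h3⟩, h4, h5, h6⟩
    exact ⟨⟨h1, h4⟩, ⟨h2, h5⟩, fun i => ⟨h3 i, h6 i⟩⟩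
  · rintro ⟨⟨h1, h4⟩, ⟨h2, h5⟩, h⟩
    exact ⟨⟨h1, h2, fun i => (h i).1⟩, h4, h5, fun i => (h i).2⟩

/-- All coordinates are within `s` of `p` iff the point lies in the corresponding box. -/
lemma mem_cube_iff (p : Fin (n + 2) → ℝ) (s : ℝ) (x : Fin (n + 2) → ℝ) :
    (∀ i, |x i - p i| ≤ s) ↔
      (p 0 - s ≤ x 0 ∧ x 0 ≤ p 0 + s) ∧ (p 1 - s ≤ x 1 ∧ x 1 ≤ p 1 + s)
        ∧ ∀ i : Fin n, p i.succ.succ - s ≤ x i.succ.succ ∧ x i.succ.succ ≤ p i.succ.succ + s := by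
  rw [Fin.forall_fin_succ, Fin.forall_fin_succ]
  have h1 : (Fin.succ (0 : Fin (n + 1)) : Fin (n + 2)) = 1 := rfl
  rw [h1]
  simp only [abs_le]
  constructor
  · rintro ⟨⟨h1, h2⟩, ⟨h3, h4⟩, h⟩
    exact ⟨⟨by linarith, by linarith⟩, ⟨by linarith, by linarith⟩,
      fun i => ⟨by linarith [(h i).1], by linarith [(h i).2]⟩⟩
  · rintro ⟨⟨h1, h2⟩, ⟨h3, h4⟩, h⟩
    exact ⟨⟨by linarith, by linarith⟩, ⟨by linarith, by linarith⟩,
      fun i => ⟨by linarith [(h i).1], by linarith [(h i).2]⟩⟩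

lemma unif_apply (K : Set (Fin (n + 2) → ℝ)) {A : Set (Fin (n + 2) → ℝ)}
    (hA : MeasurableSet A) : unif K A = (volume K)⁻¹ * volume (A ∩ K) := by
  unfold unif
  rw [Measure.smul_apply, Measure.restrict_apply hA, smul_eq_mul]

lemma unif_mono_on (K : Set (Fin (n + 2) → ℝ)) {A B : Set (Fin (n + 2) → ℝ)}
    (hA : MeasurableSet A) (h : A ∩ K ⊆ B) : unif K A ≤ unif K B := by
  rw [unif_apply K hA]
  unfold unif
  rw [Measure.smul_apply, smul_eq_mul]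
  have h2 : volume (A ∩ K) ≤ (volume.restrict K) B :=
    calc volume (A ∩ K) ≤ volume (B ∩ K) := measure_mono (fun x hx => ⟨h hx, hx.2⟩)
      _ ≤ (volume.restrict K) B := Measure.le_restrict_apply K B
  exact mul_le_mul_right h2 _

end Vale.Agent.Helper6.P074
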