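import Vale.Agent.Helper6.P074Body

/-!
# A lower bound for the Wasserstein distance of the two three-atom targets

Every coupling has to move the mass sitting at the origin by distance at least `t`.
-/

namespace Vale.Agent.Helper6.P074

open MeasureTheory Vale.Agent.Helper16.OT
open Classical

variable {n : ℕ}

lemma sqDist_zero_ge (t : ℝ) (ht1 : t ^ 2 ≤ 1) (y : Fin (n + 2) → ℝ)
    (hy : y ∈ ({yN t, yL, yR} : Finset (Fin (n + 2) → ℝ))) : t ^ 2 ≤ sqDist 0 y := by
  have hy' : y = yN t ∨ y = yL ∨ y = yR := by simpa using hy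
  rcases hy' with rfl | rfl | rfl
  · rw [sqDist_zero_yN]
  · rw [sqDist_zero_yL]; exact ht1
  · rw [sqDist_zero_yR]; exact ht1

/-- Any coupling of the slab target and a three-atom target with middle site `t e_1` costs at
least `t^2` times the mass of the slab. -/
lemma W2sq_slab_ge (ρ : Measure (Fin (n + 2) → ℝ)) (β0 β1 t : ℝ) (ht1 : t ^ 2 ≤ 1)
    {A : Set (Fin (n + 2) → ℝ)} (hA : MeasurableSet A) (c : ℝ) :
    ENNReal.ofReal (t ^ 2) * ρ (slab β0 β1)
      ≤ W2sq (ρ.map (tri (slab β0 β1) β0 0)) (ρ.map (tri A c (yN t))) := by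
  unfold W2sq
  refine le_iInf ?_
  rintro ⟨π, h1, h2⟩
  simp only
  have hF : MeasurableSet (({yN t, yL, yR} : Finset (Fin (n + 2) → ℝ)) : Set (Fin (n + 2) → ℝ)) :=
    Finset.measurableSet _
  have hnull : π (Prod.snd ⁻¹'
      (({yN t, yL, yR} : Finset (Fin (n + 2) → ℝ)) : Set (Fin (n + 2) → ℝ))ᶜ) = 0 := by
    rw [← Measure.map_apply measurable_snd hF.compl, h2,
      Measure.map_apply (measurable_tri hA c _) hF.compl]
    have e : tri A c (yN t) ⁻¹'
        (({yN t, yL, yR} : Finset (Fin (n + 2) → ℝ)) : Set (Fin (n + 2) → ℝ))ᶜ = ∅ := by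
      apply Set.eq_empty_of_forall_notMem
      intro x hx
      exact hx (tri_mem A c (yN t) x)
    rw [e]
    exact measure_empty
  have hE : MeasurableSet (Prod.fst ⁻¹' {(0 : Fin (n + 2) → ℝ)} :
      Set ((Fin (n + 2) → ℝ) × (Fin (n + 2) → ℝ))) :=
    measurable_fst (measurableSet_singleton 0)
  have hπE : π (Prod.fst ⁻¹' {(0 : Fin (n + 2) → ℝ)}) = ρ (slab β0 β1) := by
    rw [← Measure.map_apply measurable_fst (measurableSet_singleton 0), h1,
      Measure.map_apply (measurable_tri (measurableSet_slab β0 β1) β0 0)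
        (measurableSet_singleton 0),
      tri_preimage_q β0 zero_ne_yL zero_ne_yR]
  have hae : ∀ᵐ q ∂π, q ∉ Prod.snd ⁻¹'
      (({yN t, yL, yR} : Finset (Fin (n + 2) → ℝ)) : Set (Fin (n + 2) → ℝ))ᶜ :=
    measure_eq_zero_iff_ae_notMem.mp hnull
  calc ENNReal.ofReal (t ^ 2) * ρ (slab β0 β1)
      = ∫⁻ _ in Prod.fst ⁻¹' {(0 : Fin (n + 2) → ℝ)}, ENNReal.ofReal (t ^ 2) ∂π := by
        rw [setLIntegral_const, hπE]
    _ ≤ ∫⁻ q in Prod.fst ⁻¹' {(0 : Fin (n + 2) → ℝ)}, ENNReal.ofReal (sqDist q.1 q.2) ∂π := by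
        apply setLIntegral_mono_ae' hE
        filter_upwards [hae] with q hq hqE
        have hq1 : q.1 = 0 := hqE
        have hq2 : q.2 ∈ ({yN t, yL, yR} : Finset (Fin (n + 2) → ℝ)) := by
          by_contra hcon
          exact hq hcon
        rw [hq1]
        exact ENNReal.ofReal_le_ofReal (sqDist_zero_ge t ht1 q.2 hq2)
    _ ≤ ∫⁻ q, ENNReal.ofReal (sqDist q.1 q.2) ∂π := setLIntegral_le_lintegral _ _

end Vale.Agent.Helper6.P074
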