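import Vale.Agent.Helper6.P074Geom

/-!
# Maps with three values: `-e_0`, `e_0` and a third point

`tri A c q` takes the value `q` on `A`, and off `A` the value `-e_0` where `x 0 ≤ c` and
`e_0` where `c < x 0`.
-/

namespace Vale.Agent.Helper6.P074

open MeasureTheory Vale.Agent.Helper16.OT
open Classical

variable {n : ℕ}

/-- The site `-e_0`. -/
noncomputable def yL : Fin (n + 2) → ℝ := Pi.single 0 (-1)

/-- The site `e_0`. -/
noncomputable def yR : Fin (n + 2) → ℝ := Pi.single 0 1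

/-- The site `t e_1`. -/
noncomputable def yN (t : ℝ) : Fin (n + 2) → ℝ := Pi.single 1 t

lemma yL_ne_yR : (yL : Fin (n + 2) → ℝ) ≠ yR := by
  intro h
  have := congrFun h 0
  simp [yL, yR] at this
  linarith

lemma yN_zero (t : ℝ) : (yN t : Fin (n + 2) → ℝ) 0 = 0 := by
  simp [yN]

lemma yN_ne_yL (t : ℝ) : (yN t : Fin (n + 2) → ℝ) ≠ yL := by
  intro h
  have := congrFun h 0
  rw [yN_zero] at this
  simp [yL] at this

lemma yN_ne_yR (t : ℝ) : (yN t : Fin (n + 2) → ℝ) ≠ yR := by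
  intro h
  have := congrFun h 0
  rw [yN_zero] at this
  simp [yR] at this

lemma zero_ne_yL : (0 : Fin (n + 2) → ℝ) ≠ yL := by
  intro h
  have := congrFun h 0
  simp [yL] at this

lemma zero_ne_yR : (0 : Fin (n + 2) → ℝ) ≠ yR := by
  intro h
  have := congrFun h 0
  simp [yR] at this

lemma sqDist_yL (x : Fin (n + 2) → ℝ) : sqDist x yL = sqDist x 0 + 2 * x 0 + 1 := by
  rw [yL, sqDist_single]; ring

lemma sqDist_yR (x : Fin (n + 2) → ℝ) : sqDist x yR = sqDist x 0 - 2 * x 0 + 1 := by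
  rw [yR, sqDist_single]; ring

lemma sqDist_yN (x : Fin (n + 2) → ℝ) (t : ℝ) :
    sqDist x (yN t) = sqDist x 0 - 2 * t * x 1 + t ^ 2 := by
  rw [yN, sqDist_single]

/-- The three-valued map. -/
noncomputable def tri (A : Set (Fin (n + 2) → ℝ)) (c : ℝ) (q : Fin (n + 2) → ℝ) :
    (Fin (n + 2) → ℝ) → (Fin (n + 2) → ℝ) :=
  fun x => if x ∈ A then q else if x 0 ≤ c then yL else yR

lemma measurableSet_coord_le (c : ℝ) : MeasurableSet {x : Fin (n + 2) → ℝ | x 0 ≤ c} :=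
  measurableSet_le (measurable_pi_apply 0) measurable_const

lemma measurable_tri {A : Set (Fin (n + 2) → ℝ)} (hA : MeasurableSet A) (c : ℝ)
    (q : Fin (n + 2) → ℝ) : Measurable (tri A c q) :=
  Measurable.ite hA measurable_const
    (Measurable.ite (measurableSet_coord_le c) measurable_const measurable_const)

lemma tri_mem (A : Set (Fin (n + 2) → ℝ)) (c : ℝ) (q x : Fin (n + 2) → ℝ) :
    tri A c q x ∈ ({q, yL, yR} : Finset (Fin (n + 2) → ℝ)) := by
  unfold tri
  split_ifs <;> simp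

lemma tri_preimage_q {A : Set (Fin (n + 2) → ℝ)} (c : ℝ) {q : Fin (n + 2) → ℝ}
    (hqL : q ≠ yL) (hqR : q ≠ yR) : tri A c q ⁻¹' {q} = A := by
  ext x
  simp only [Set.mem_preimage, Set.mem_singleton_iff, tri]
  split_ifs with h1 h2
  · simp [h1]
  · simp [h1, hqL.symm]
  · simp [h1, hqR.symm]

lemma tri_preimage_L {A : Set (Fin (n + 2) → ℝ)} (c : ℝ) {q : Fin (n + 2) → ℝ}
    (hqL : q ≠ yL) : tri A c q ⁻¹' {yL} = {x | x ∉ A ∧ x 0 ≤ c} := by
  ext x
  simp only [Set.mem_preimage, Set.mem_singleton_iff, tri, Set.mem_ofPred_eq]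
  split_ifs with h1 h2
  · simp [h1, hqL]
  · simp [h1, h2]
  · simp [h1, h2, yL_ne_yR.symm]

lemma tri_preimage_R {A : Set (Fin (n + 2) → ℝ)} (c : ℝ) {q : Fin (n + 2) → ℝ}
    (hqR : q ≠ yR) : tri A c q ⁻¹' {yR} = {x | x ∉ A ∧ c < x 0} := by
  ext x
  simp only [Set.mem_preimage, Set.mem_singleton_iff, tri, Set.mem_ofPred_eq]
  split_ifs with h1 h2
  · simp [h1, hqR]
  · simp [h1, yL_ne_yR, not_lt.mpr h2]
  · simp [h1, not_le.mp h2]

/-- The three cells have total mass `ρ univ`. -/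
lemma tri_cells (ρ : Measure (Fin (n + 2) → ℝ)) {A : Set (Fin (n + 2) → ℝ)}
    (hA : MeasurableSet A) (c : ℝ) :
    ρ A + (ρ {x | x ∉ A ∧ x 0 ≤ c} + ρ {x | x ∉ A ∧ c < x 0}) = ρ Set.univ := by
  have h1 : ρ {x | x ∉ A ∧ x 0 ≤ c} + ρ {x | x ∉ A ∧ c < x 0} = ρ Aᶜ := by
    have e1 : {x : Fin (n + 2) → ℝ | x ∉ A ∧ x 0 ≤ c} = Aᶜ ∩ {x | x 0 ≤ c} := by
      ext x; simp
    have e2 : {x : Fin (n + 2) → ℝ | x ∉ A ∧ c < x 0} = Aᶜ \ {x | x 0 ≤ c} := by
      ext x; simp
    rw [e1, e2]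
    exact measure_inter_add_sdiff Aᶜ (measurableSet_coord_le c)
  rw [h1]
  exact measure_add_measure_compl hA

/-- Optimality of a three-valued map whose cells are cut out by the three potentials. -/
lemma isOptMap_tri (ρ : Measure (Fin (n + 2) → ℝ)) [IsFiniteMeasure ρ]
    {A : Set (Fin (n + 2) → ℝ)} (hA : MeasurableSet A) (c : ℝ) {q : Fin (n + 2) → ℝ}
    (hqL : q ≠ yL) (hqR : q ≠ yR) (a b thr : ℝ) (ha : 0 ≤ a) (hb : 0 ≤ b)
    (hb' : 0 ≤ b + 4 * thr)
    (h1 : ∀ x ∈ A, sqDist x q + a ≤ sqDist x yL + b ∧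
      sqDist x q + a ≤ sqDist x yR + (b + 4 * thr))
    (h2 : ∀ x, x ∉ A → x 0 ≤ c → sqDist x yL + b ≤ sqDist x q + a ∧ x 0 ≤ thr)
    (h3 : ∀ x, x ∉ A → c < x 0 → sqDist x yR + (b + 4 * thr) ≤ sqDist x q + a ∧ thr ≤ x 0) :
    IsOptMap ρ (ρ.map (tri A c q)) (tri A c q) := by
  set ψ : (Fin (n + 2) → ℝ) → ℝ :=
    fun y => if y = q then a else if y = yL then b else b + 4 * thr with hψ
  have hψq : ψ q = a := by simp [hψ]
  have hψL : ψ yL = b := by simp [hψ, hqL.symm]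
  have hψR : ψ yR = b + 4 * thr := by simp [hψ, hqR.symm, yL_ne_yR.symm]
  have hψm : Measurable ψ :=
    Measurable.ite (measurableSet_singleton q) measurable_const
      (Measurable.ite (measurableSet_singleton yL) measurable_const measurable_const)
  have hψ0 : ∀ y, 0 ≤ ψ y := by
    intro y
    simp only [hψ]
    split_ifs <;> assumption
  have hψB : ∀ y, ψ y ≤ a + b + (b + 4 * thr) := by
    intro y
    simp only [hψ]
    split_ifs <;> linarith
  refine isOptMap_of_potential ρ (tri A c q) (measurable_tri hA c q) ψ hψm hψ0 _ hψB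
    (({q, yL, yR} : Finset (Fin (n + 2) → ℝ)) : Set (Fin (n + 2) → ℝ))
    (Finset.measurableSet _) (fun x => tri_mem A c q x) ?_
  intro x y hy
  have hy' : y = q ∨ y = yL ∨ y = yR := by
    simpa using hy
  by_cases hxA : x ∈ A
  · have hT : tri A c q x = q := by simp [tri, hxA]
    rw [hT, hψq]
    rcases hy' with rfl | rfl | rfl
    · rw [hψq]
    · rw [hψL]; exact (h1 x hxA).1
    · rw [hψR]; exact (h1 x hxA).2
  · by_cases hxc : x 0 ≤ c
    · have hT : tri A c q x = yL := by simp [tri, hxA, hxc]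
      rw [hT, hψL]
      rcases hy' with rfl | rfl | rfl
      · rw [hψq]; exact (h2 x hxA hxc).1
      · rw [hψL]
      · rw [hψR, sqDist_yL, sqDist_yR]
        have := (h2 x hxA hxc).2
        linarith
    · have hxc' : c < x 0 := not_le.mp hxc
      have hT : tri A c q x = yR := by simp [tri, hxA, hxc]
      rw [hT, hψR]
      rcases hy' with rfl | rfl | rfl
      · rw [hψq]; exact (h3 x hxA hxc').1
      · rw [hψL, sqDist_yL, sqDist_yR]
        have := (h3 x hxA hxc').2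
        linarith
      · rw [hψR]

end Vale.Agent.Helper6.P074
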