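import Mathlib

/-!
# P225: a radial mode that is not identically zero has a sign

For the radial equation `φ'' + m (f'/f) φ' = λ φ / f²` on `(0,∞)` with `λ > 0`, `f > 0`
and `φ = O(r^j)`, `φ' = O(r^(j-1))` at `0` (`j ≥ 1`): the flux `F = φ · f^m φ'` is
nondecreasing and tends to `0` at `0`.  Hence a zero of `φ` at `a > 0` forces `φ = 0` on
`(0, a]`, and a solution without zeros has constant sign.
-/

namespace Vale.Agent.Helper6.P225Sign

open Set Filter Topology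

section

variable {k j : ℕ} {lam : ℝ} {f f' φ φ' φ'' : ℝ → ℝ}

/-- The flux quantity `φ · f^(k+1) φ'`. -/
def Flux (k : ℕ) (f φ φ' : ℝ → ℝ) (r : ℝ) : ℝ := φ r * (f r ^ (k + 1) * φ' r)

lemma hasDerivAt_flux (r : ℝ) (hfpos : 0 < f r)
    (hf : HasDerivAt f (f' r) r) (hφ : HasDerivAt φ (φ' r) r)
    (hφ' : HasDerivAt φ' (φ'' r) r)
    (hode : φ'' r + ((k : ℝ) + 1) * (f' r / f r) * φ' r = lam * φ r / (f r) ^ 2) :
    HasDerivAt (Flux k f φ φ')
      (f r ^ (k + 1) * (φ' r ^ 2 + lam * φ r ^ 2 / f r ^ 2)) r := by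
  have h1 : HasDerivAt (fun r => f r ^ (k + 1))
      (((k + 1 : ℕ) : ℝ) * f r ^ (k + 1 - 1) * f' r) r := hf.pow (k + 1)
  have h2 : HasDerivAt (fun r => φ r * (f r ^ (k + 1) * φ' r))
      (φ' r * (f r ^ (k + 1) * φ' r)
        + φ r * (((k + 1 : ℕ) : ℝ) * f r ^ (k + 1 - 1) * f' r * φ' r
          + f r ^ (k + 1) * φ'' r)) r := hφ.mul (h1.mul hφ')
  have hne : f r ≠ 0 := hfpos.ne'
  have hE : φ'' r = lam * φ r / (f r) ^ 2 - ((k : ℝ) + 1) * (f' r / f r) * φ' r := by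
    linarith
  show HasDerivAt (fun r => φ r * (f r ^ (k + 1) * φ' r)) _ r
  refine h2.congr_deriv ?_
  rw [hE]
  simp only [Nat.add_sub_cancel]
  push_cast
  field_simp
  ring

lemma flux_der_nonneg (r : ℝ) (hfpos : 0 < f r) (hlam : 0 ≤ lam) :
    0 ≤ f r ^ (k + 1) * (φ' r ^ 2 + lam * φ r ^ 2 / f r ^ 2) := by
  have h1 : 0 ≤ f r ^ (k + 1) := (pow_pos hfpos _).le
  have h2 : 0 ≤ lam * φ r ^ 2 / f r ^ 2 := by positivity
  have h3 : 0 ≤ φ' r ^ 2 := sq_nonneg _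
  exact mul_nonneg h1 (add_nonneg h3 h2)

lemma flux_mono (hlam : 0 ≤ lam) (hfpos : ∀ r, 0 < r → 0 < f r)
    (hf : ∀ r, 0 < r → HasDerivAt f (f' r) r)
    (hφ : ∀ r, 0 < r → HasDerivAt φ (φ' r) r)
    (hφ' : ∀ r, 0 < r → HasDerivAt φ' (φ'' r) r)
    (hode : ∀ r, 0 < r →
      φ'' r + ((k : ℝ) + 1) * (f' r / f r) * φ' r = lam * φ r / (f r) ^ 2) :
    MonotoneOn (Flux k f φ φ') (Ioi 0) := by
  have hd : ∀ r, 0 < r → HasDerivAt (Flux k f φ φ')
      (f r ^ (k + 1) * (φ' r ^ 2 + lam * φ r ^ 2 / f r ^ 2)) r := fun r hr =>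
    hasDerivAt_flux r (hfpos r hr) (hf r hr) (hφ r hr) (hφ' r hr) (hode r hr)
  refine monotoneOn_of_deriv_nonneg (convex_Ioi 0) ?_ ?_ ?_
  · exact fun r hr => (hd r hr).continuousAt.continuousWithinAt
  · rw [interior_Ioi]
    exact fun r hr => (hd r hr).differentiableAt.differentiableWithinAt
  · rw [interior_Ioi]
    intro r hr
    rw [(hd r hr).deriv]
    exact flux_der_nonneg r (hfpos r hr) hlam

lemma flux_nonneg (hj : 1 ≤ j) (hlam : 0 ≤ lam) (hf0 : f 0 = 0)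
    (hf0' : HasDerivWithinAt f 1 (Ici 0) 0)
    (hfpos : ∀ r, 0 < r → 0 < f r)
    (hf : ∀ r, 0 < r → HasDerivAt f (f' r) r)
    (hφ : ∀ r, 0 < r → HasDerivAt φ (φ' r) r)
    (hφ' : ∀ r, 0 < r → HasDerivAt φ' (φ'' r) r)
    (hode : ∀ r, 0 < r →
      φ'' r + ((k : ℝ) + 1) * (f' r / f r) * φ' r = lam * φ r / (f r) ^ 2)
    (hreg : ∃ C ε : ℝ, 0 < ε ∧ ∀ r, 0 < r → r < ε →
      |φ r| ≤ C * r ^ j ∧ |φ' r| ≤ C * r ^ (j - 1)) :
    ∀ r, 0 < r → 0 ≤ Flux k f φ φ' r := by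
  intro r0 hr0
  by_contra hneg0
  have hneg : Flux k f φ φ' r0 < 0 := not_le.mp hneg0
  have hmono := flux_mono hlam hfpos hf hφ hφ' hode
  obtain ⟨C, ε, hε, hC⟩ := hreg
  -- `f ≤ 1` near `0`
  have hcont : ContinuousWithinAt f (Ici 0) 0 := hf0'.continuousWithinAt
  rw [Metric.continuousWithinAt_iff] at hcont
  obtain ⟨η, hη, hfη⟩ := hcont 1 one_pos
  have hfle : ∀ r, 0 < r → r < η → f r ≤ 1 := by
    intro r hr hrη
    have := hfη (x := r) (mem_Ici.mpr hr.le) (by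
      rw [Real.dist_eq, sub_zero, abs_of_pos hr]; exact hrη)
    rw [Real.dist_eq, hf0, sub_zero] at this
    exact (le_abs_self _).trans this.le
  set δ := -Flux k f φ φ' r0 with hδ
  have hδpos : 0 < δ := by rw [hδ]; linarith
  -- a small radius
  have hC2 : 0 ≤ C ^ 2 := sq_nonneg C
  obtain ⟨r, hr, hrr0, hrε, hrη, hr1, hrδ⟩ : ∃ r : ℝ, 0 < r ∧ r ≤ r0 ∧ r < ε ∧ r < η ∧ r < 1
      ∧ C ^ 2 * r < δ := by
    refine ⟨min (min (r0 / 2) (ε / 2)) (min (min (η / 2) (1 / 2)) (δ / (2 * (C ^ 2 + 1)))),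
      ?_, ?_, ?_, ?_, ?_, ?_⟩
    · positivity
    · exact (min_le_left _ _).trans ((min_le_left _ _).trans (by linarith))
    · exact lt_of_le_of_lt ((min_le_left _ _).trans (min_le_right _ _)) (by linarith)
    · exact lt_of_le_of_lt ((min_le_right _ _).trans ((min_le_left _ _).trans (min_le_left _ _)))
        (by linarith)
    · exact lt_of_le_of_lt ((min_le_right _ _).trans ((min_le_left _ _).trans (min_le_right _ _)))
        (by norm_num)
    · have h1 : min (min (r0 / 2) (ε / 2)) (min (min (η / 2) (1 / 2)) (δ / (2 * (C ^ 2 + 1))))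
          ≤ δ / (2 * (C ^ 2 + 1)) := (min_le_right _ _).trans (min_le_right _ _)
      have h2 : C ^ 2 * (δ / (2 * (C ^ 2 + 1))) < δ := by
        rw [← mul_div_assoc, div_lt_iff₀ (by positivity)]
        nlinarith
      exact lt_of_le_of_lt (mul_le_mul_of_nonneg_left h1 hC2) h2
  have hle : Flux k f φ φ' r ≤ Flux k f φ φ' r0 := hmono (mem_Ioi.mpr hr) (mem_Ioi.mpr hr0) hrr0
  obtain ⟨h1, h2⟩ := hC r hr hrε
  have hfr : 0 < f r := hfpos r hr
  have hfr1 : f r ^ (k + 1) ≤ 1 := pow_le_one₀ hfr.le (hfle r hr hrη)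
  have hb1 : 0 ≤ C * r ^ j := (abs_nonneg _).trans h1
  have hb2 : 0 ≤ C * r ^ (j - 1) := (abs_nonneg _).trans h2
  have habs : |Flux k f φ φ' r| ≤ C ^ 2 * r := by
    unfold Flux
    rw [abs_mul, abs_mul, abs_of_pos (pow_pos hfr _)]
    have e1 : |φ r| * (f r ^ (k + 1) * |φ' r|) ≤ (C * r ^ j) * (1 * (C * r ^ (j - 1))) := by
      apply mul_le_mul h1 _ (by positivity) hb1
      exact mul_le_mul hfr1 h2 (abs_nonneg _) zero_le_one
    have e2 : (C * r ^ j) * (1 * (C * r ^ (j - 1))) = C ^ 2 * (r ^ (j - 1) * r ^ (j - 1) * r) := by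
      obtain ⟨i, rfl⟩ : ∃ i, j = i + 1 := ⟨j - 1, by omega⟩
      simp only [Nat.add_sub_cancel]
      ring
    have e3 : r ^ (j - 1) * r ^ (j - 1) * r ≤ r := by
      have ha1 : r ^ (j - 1) ≤ 1 := pow_le_one₀ hr.le hr1.le
      have h0 : 0 ≤ r ^ (j - 1) := by positivity
      have haa : r ^ (j - 1) * r ^ (j - 1) ≤ 1 := by nlinarith
      calc r ^ (j - 1) * r ^ (j - 1) * r ≤ 1 * r := mul_le_mul_of_nonneg_right haa hr.le
        _ = r := one_mul r
    calc |φ r| * (f r ^ (k + 1) * |φ' r|) ≤ (C * r ^ j) * (1 * (C * r ^ (j - 1))) := e1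
      _ = C ^ 2 * (r ^ (j - 1) * r ^ (j - 1) * r) := e2
      _ ≤ C ^ 2 * r := mul_le_mul_of_nonneg_left e3 hC2
  have h3 : -(C ^ 2 * r) ≤ Flux k f φ φ' r := by
    have := neg_abs_le (Flux k f φ φ' r)
    linarith
  have h4 : C ^ 2 * r < -Flux k f φ φ' r0 := by rw [← hδ]; exact hrδ
  linarith

lemma zero_left (hj : 1 ≤ j) (hlam : 0 < lam) (hf0 : f 0 = 0)
    (hf0' : HasDerivWithinAt f 1 (Ici 0) 0)
    (hfpos : ∀ r, 0 < r → 0 < f r)
    (hf : ∀ r, 0 < r → HasDerivAt f (f' r) r)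
    (hφ : ∀ r, 0 < r → HasDerivAt φ (φ' r) r)
    (hφ' : ∀ r, 0 < r → HasDerivAt φ' (φ'' r) r)
    (hode : ∀ r, 0 < r →
      φ'' r + ((k : ℝ) + 1) * (f' r / f r) * φ' r = lam * φ r / (f r) ^ 2)
    (hreg : ∃ C ε : ℝ, 0 < ε ∧ ∀ r, 0 < r → r < ε →
      |φ r| ≤ C * r ^ j ∧ |φ' r| ≤ C * r ^ (j - 1))
    (a : ℝ) (ha : 0 < a) (h0 : φ a = 0) : ∀ r, 0 < r → r < a → φ r = 0 := by
  have hmono := flux_mono hlam.le hfpos hf hφ hφ' hode
  have hnn := flux_nonneg hj hlam.le hf0 hf0' hfpos hf hφ hφ' hode hreg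
  have hFa : Flux k f φ φ' a = 0 := by unfold Flux; rw [h0, zero_mul]
  have hF0 : ∀ r, 0 < r → r ≤ a → Flux k f φ φ' r = 0 := by
    intro r hr hra
    have h1 := hmono (mem_Ioi.mpr hr) (mem_Ioi.mpr ha) hra
    rw [hFa] at h1
    exact le_antisymm h1 (hnn r hr)
  intro r hr hra
  have hd := hasDerivAt_flux r (hfpos r hr) (hf r hr) (hφ r hr) (hφ' r hr) (hode r hr)
  have hev : Flux k f φ φ' =ᶠ[𝓝 r] fun _ => (0 : ℝ) := by
    have hmem : Ioo 0 a ∈ 𝓝 r := Ioo_mem_nhds hr hra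
    filter_upwards [hmem] with x hx
    exact hF0 x hx.1 hx.2.le
  have hd0 : HasDerivAt (Flux k f φ φ') 0 r := (hasDerivAt_const r (0 : ℝ)).congr_of_eventuallyEq hev
  have hz := hd.unique hd0
  have hfr := hfpos r hr
  have hp : 0 < f r ^ (k + 1) := pow_pos hfr _
  have hsum : φ' r ^ 2 + lam * φ r ^ 2 / f r ^ 2 = 0 := by
    rcases mul_eq_zero.mp hz with h | h
    · exact absurd h hp.ne'
    · exact h
  have h2 : 0 ≤ φ' r ^ 2 := sq_nonneg _
  have h3 : 0 ≤ lam * φ r ^ 2 / f r ^ 2 := by positivity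
  have h4 : lam * φ r ^ 2 / f r ^ 2 = 0 := by linarith
  have h5 : lam * φ r ^ 2 = 0 := by
    have hf2 : (f r ^ 2) ≠ 0 := (pow_pos hfr 2).ne'
    field_simp at h4
    linarith
  have h6 : φ r ^ 2 = 0 := by
    rcases mul_eq_zero.mp h5 with h | h
    · exact absurd h hlam.ne'
    · exact h
  exact pow_eq_zero_iff (two_ne_zero) |>.mp h6

/-- A regular solution that does not vanish identically near `0` has no zero, hence a
constant sign, on `(0,∞)`. -/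
lemma sign_of_ne (hj : 1 ≤ j) (hlam : 0 < lam) (hf0 : f 0 = 0)
    (hf0' : HasDerivWithinAt f 1 (Ici 0) 0)
    (hfpos : ∀ r, 0 < r → 0 < f r)
    (hf : ∀ r, 0 < r → HasDerivAt f (f' r) r)
    (hφ : ∀ r, 0 < r → HasDerivAt φ (φ' r) r)
    (hφ' : ∀ r, 0 < r → HasDerivAt φ' (φ'' r) r)
    (hode : ∀ r, 0 < r →
      φ'' r + ((k : ℝ) + 1) * (f' r / f r) * φ' r = lam * φ r / (f r) ^ 2)
    (hreg : ∃ C ε : ℝ, 0 < ε ∧ ∀ r, 0 < r → r < ε →
      |φ r| ≤ C * r ^ j ∧ |φ' r| ≤ C * r ^ (j - 1))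
    (hne : ∀ ε : ℝ, 0 < ε → ∃ r, 0 < r ∧ r < ε ∧ φ r ≠ 0) :
    (∀ r, 0 < r → 0 < φ r) ∨ (∀ r, 0 < r → φ r < 0) := by
  have hnz : ∀ a, 0 < a → φ a ≠ 0 := by
    intro a ha h0
    obtain ⟨r, hr, hra, hφr⟩ := hne a ha
    exact hφr (zero_left hj hlam hf0 hf0' hfpos hf hφ hφ' hode hreg a ha h0 r hr hra)
  have hcont : ∀ a b : ℝ, 0 < a → 0 < b → ContinuousOn φ (uIcc a b) := by
    intro a b ha hb x hx
    have hx0 : 0 < x := lt_of_lt_of_le (lt_min ha hb) hx.1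
    exact (hφ x hx0).continuousAt.continuousWithinAt
  have hsame : ∀ a b : ℝ, 0 < a → 0 < b → 0 < φ a → φ b < 0 → False := by
    intro a b ha hb hpa hnb
    have h0 : (0 : ℝ) ∈ uIcc (φ a) (φ b) := by
      rw [mem_uIcc]
      right
      exact ⟨hnb.le, hpa.le⟩
    obtain ⟨c, hc, hc0⟩ := intermediate_value_uIcc (hcont a b ha hb) h0
    have hcpos : 0 < c := lt_of_lt_of_le (lt_min ha hb) hc.1
    exact hnz c hcpos hc0
  rcases lt_or_gt_of_ne (hnz 1 one_pos) with h1 | h1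
  · right
    intro r hr
    rcases lt_or_gt_of_ne (hnz r hr) with h | h
    · exact h
    · exact absurd (hsame r 1 hr one_pos h h1) id
  · left
    intro r hr
    rcases lt_or_gt_of_ne (hnz r hr) with h | h
    · exact absurd (hsame 1 r one_pos hr h1 h) id
    · exact h

lemma hasDerivAt_g (r : ℝ) (hfpos : 0 < f r)
    (hf : HasDerivAt f (f' r) r) (hφ' : HasDerivAt φ' (φ'' r) r)
    (hode : φ'' r + ((k : ℝ) + 1) * (f' r / f r) * φ' r = lam * φ r / (f r) ^ 2) :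
    HasDerivAt (fun r => f r ^ (k + 1) * φ' r)
      (lam * f r ^ (k + 1) * φ r / f r ^ 2) r := by
  have h1 : HasDerivAt (fun r => f r ^ (k + 1))
      (((k + 1 : ℕ) : ℝ) * f r ^ (k + 1 - 1) * f' r) r := hf.pow (k + 1)
  have h2 : HasDerivAt (fun r => f r ^ (k + 1) * φ' r)
      (((k + 1 : ℕ) : ℝ) * f r ^ (k + 1 - 1) * f' r * φ' r
          + f r ^ (k + 1) * φ'' r) r := h1.mul hφ'
  have hne : f r ≠ 0 := hfpos.ne'
  have hE : φ'' r = lam * φ r / (f r) ^ 2 - ((k : ℝ) + 1) * (f' r / f r) * φ' r := by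
    linarith
  refine h2.congr_deriv ?_
  rw [hE]
  simp only [Nat.add_sub_cancel]
  push_cast
  field_simp
  ring

/-- A regular solution that vanishes on an interval `(0, ε)` vanishes on `(0,∞)`. -/
lemma zero_right (hlam : 0 ≤ lam)
    (hfpos : ∀ r, 0 < r → 0 < f r)
    (hf : ∀ r, 0 < r → HasDerivAt f (f' r) r)
    (hφ : ∀ r, 0 < r → HasDerivAt φ (φ' r) r)
    (hφ' : ∀ r, 0 < r → HasDerivAt φ' (φ'' r) r)
    (hode : ∀ r, 0 < r →
      φ'' r + ((k : ℝ) + 1) * (f' r / f r) * φ' r = lam * φ r / (f r) ^ 2)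
    (ε : ℝ) (hε : 0 < ε) (hz : ∀ r, 0 < r → r < ε → φ r = 0) :
    ∀ r, 0 < r → φ r = 0 := by
  intro r0 hr0
  by_cases hlt : r0 < ε
  · exact hz r0 hr0 hlt
  have hle : ε ≤ r0 := not_lt.mp hlt
  set a := ε / 2 with ha_def
  have ha : 0 < a := by positivity
  have haε : a < ε := by rw [ha_def]; linarith
  set b := r0 + 1 with hb_def
  have hab : a ≤ b := by rw [hb_def]; linarith
  -- initial values at `a`
  have hφa : φ a = 0 := hz a ha haε
  have hφ'a : φ' a = 0 := by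
    have hev : φ =ᶠ[𝓝 a] fun _ => (0 : ℝ) := by
      have hmem : Ioo 0 ε ∈ 𝓝 a := Ioo_mem_nhds ha haε
      filter_upwards [hmem] with x hx
      exact hz x hx.1 hx.2
    have hd0 : HasDerivAt φ 0 a := (hasDerivAt_const a (0 : ℝ)).congr_of_eventuallyEq hev
    exact (hφ a ha).unique hd0
  -- bounds for `f` on `[a, b]`
  have hfc : ContinuousOn f (Icc a b) := fun x hx =>
    (hf x (lt_of_lt_of_le ha hx.1)).continuousAt.continuousWithinAt
  obtain ⟨x1, hx1, hmin⟩ := isCompact_Icc.exists_isMinOn (nonempty_Icc.mpr hab) hfc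
  obtain ⟨x2, hx2, hmax⟩ := isCompact_Icc.exists_isMaxOn (nonempty_Icc.mpr hab) hfc
  set c := f x1 with hc_def
  set M := f x2 with hM_def
  have hc : 0 < c := hfpos x1 (lt_of_lt_of_le ha hx1.1)
  have hfge : ∀ x ∈ Icc a b, c ≤ f x := fun x hx => hmin hx
  have hfle : ∀ x ∈ Icc a b, f x ≤ M := fun x hx => hmax hx
  have hM : 0 < M := lt_of_lt_of_le hc (hfle x1 hx1)
  set K := 1 / c ^ (k + 1) + lam * M ^ (k + 1) / c ^ 2 with hK_def
  -- the system
  set G : ℝ → ℝ × ℝ := fun r => (φ r, f r ^ (k + 1) * φ' r) with hG_def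
  set G' : ℝ → ℝ × ℝ := fun r => (φ' r, lam * f r ^ (k + 1) * φ r / f r ^ 2) with hG'_def
  have hGd : ∀ x, 0 < x → HasDerivAt G (G' x) x := fun x hx =>
    (hφ x hx).prodMk (hasDerivAt_g x (hfpos x hx) (hf x hx) (hφ' x hx) (hode x hx))
  have hGc : ContinuousOn G (Icc a b) := fun x hx =>
    (hGd x (lt_of_lt_of_le ha hx.1)).continuousAt.continuousWithinAt
  have hGd' : ∀ x ∈ Ico a b, HasDerivWithinAt G (G' x) (Ici x) x := fun x hx =>
    (hGd x (lt_of_lt_of_le ha hx.1)).hasDerivWithinAt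
  have hGa : ‖G a‖ ≤ 0 := by
    have : G a = 0 := by
      rw [hG_def]
      simp only [hφa, hφ'a, mul_zero]
      rfl
    rw [this, norm_zero]
  have hbound : ∀ x ∈ Ico a b, ‖G' x‖ ≤ K * ‖G x‖ + 0 := by
    intro x hx
    have hxI : x ∈ Icc a b := ⟨hx.1, hx.2.le⟩
    have hx0 : 0 < x := lt_of_lt_of_le ha hx.1
    have hfx : 0 < f x := hfpos x hx0
    have h1 : |φ x| ≤ ‖G x‖ := by
      have := norm_fst_le (G x)
      simp [hG_def, Real.norm_eq_abs] at this ⊢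
    have h2 : |f x ^ (k + 1) * φ' x| ≤ ‖G x‖ := by
      have := norm_snd_le (G x)
      simp [hG_def, Real.norm_eq_abs] at this ⊢
    have hGn : 0 ≤ ‖G x‖ := norm_nonneg _
    have hcp : 0 < c ^ (k + 1) := pow_pos hc _
    have hfp : c ^ (k + 1) ≤ f x ^ (k + 1) := pow_le_pow_left₀ hc.le (hfge x hxI) _
    -- first component
    have e1 : |φ' x| ≤ K * ‖G x‖ := by
      have hpos : 0 < f x ^ (k + 1) := pow_pos hfx _
      have : |φ' x| = |f x ^ (k + 1) * φ' x| / f x ^ (k + 1) := by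
        rw [abs_mul, abs_of_pos hpos]
        exact eq_div_of_mul_eq hpos.ne' (mul_comm _ _)
      rw [this]
      have h3 : |f x ^ (k + 1) * φ' x| / f x ^ (k + 1) ≤ ‖G x‖ / c ^ (k + 1) :=
        div_le_div₀ hGn h2 hcp hfp
      have h4 : ‖G x‖ / c ^ (k + 1) ≤ K * ‖G x‖ := by
        have e : ‖G x‖ / c ^ (k + 1) = 1 / c ^ (k + 1) * ‖G x‖ := by ring
        have : 0 ≤ lam * M ^ (k + 1) / c ^ 2 * ‖G x‖ := by positivity
        rw [e, hK_def, add_mul]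
        linarith
      exact h3.trans h4
    -- second component
    have e2 : |lam * f x ^ (k + 1) * φ x / f x ^ 2| ≤ K * ‖G x‖ := by
      have hMp : f x ^ (k + 1) ≤ M ^ (k + 1) := pow_le_pow_left₀ hfx.le (hfle x hxI) _
      have hc2 : c ^ 2 ≤ f x ^ 2 := pow_le_pow_left₀ hc.le (hfge x hxI) _
      have hpos2 : 0 < f x ^ 2 := pow_pos hfx _
      rw [abs_div, abs_mul, abs_mul, abs_of_nonneg hlam, abs_of_pos (pow_pos hfx _),
        abs_of_pos hpos2]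
      have h3 : lam * f x ^ (k + 1) * |φ x| / f x ^ 2 ≤ lam * M ^ (k + 1) * ‖G x‖ / c ^ 2 := by
        apply div_le_div₀ (by positivity) _ (pow_pos hc 2) hc2
        apply mul_le_mul _ h1 (abs_nonneg _) (by positivity)
        exact mul_le_mul_of_nonneg_left hMp hlam
      have h4 : lam * M ^ (k + 1) * ‖G x‖ / c ^ 2 ≤ K * ‖G x‖ := by
        rw [hK_def, add_mul]
        have : 0 ≤ 1 / c ^ (k + 1) * ‖G x‖ := by positivity
        have e : lam * M ^ (k + 1) * ‖G x‖ / c ^ 2 = lam * M ^ (k + 1) / c ^ 2 * ‖G x‖ := by ring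
        linarith
      exact h3.trans h4
    rw [add_zero]
    have : ‖G' x‖ = max |φ' x| |lam * f x ^ (k + 1) * φ x / f x ^ 2| := by
      rw [hG'_def, Prod.norm_def]
      simp only [Real.norm_eq_abs]
    rw [this]
    exact max_le e1 e2
  have hgr := norm_le_gronwallBound_of_norm_deriv_right_le hGc hGd' hGa hbound
  have hr0I : r0 ∈ Icc a b := ⟨by linarith, by rw [hb_def]; linarith⟩
  have h0 := hgr r0 hr0I
  rw [gronwallBound_ε0_δ0] at h0
  have h1 : |φ r0| ≤ ‖G r0‖ := by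
    have := norm_fst_le (G r0)
    simp [hG_def, Real.norm_eq_abs] at this ⊢
  have : |φ r0| ≤ 0 := h1.trans h0
  exact abs_eq_zero.mp (le_antisymm this (abs_nonneg _))

end

end Vale.Agent.Helper6.P225Sign
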