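import Mathlib
import Vale.Agent.Helper6.P225Sign

/-!
# P225: uniqueness of the regular radial mode

For the radial equation `φ'' + m (f'/f) φ' = λ φ / f²` on `(0,∞)` (`m = k + 1`): the Wronskian
`f^m (φ ψ' - φ' ψ)` of two solutions is constant, and tends to `0` at `0` when both solutions
are `O(r^j)` with derivative `O(r^(j-1))` there (`j ≥ 1`).  Hence two regular solutions are
proportional as soon as one of them has no zero.
-/

namespace Vale.Agent.Helper6.P225Unique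

open Set Filter Topology

open Vale.Agent.Helper6.P225Sign

section

variable {k j : ℕ} {lam : ℝ} {f f' φ φ' φ'' ψ ψ' ψ'' : ℝ → ℝ}

/-- A function with zero derivative on `(0,∞)` is constant there. -/
lemma const_of_deriv_zero {g : ℝ → ℝ} (hg : ∀ x, 0 < x → HasDerivAt g 0 x) :
    ∀ r s, 0 < r → 0 < s → g r = g s := by
  have key : ∀ a b, 0 < a → a ≤ b → g b = g a := by
    intro a b ha hab
    have hcont : ContinuousOn g (Icc a b) := fun x hx =>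
      (hg x (lt_of_lt_of_le ha hx.1)).continuousAt.continuousWithinAt
    have hder : ∀ x ∈ Ico a b, HasDerivWithinAt g 0 (Ici x) x := fun x hx =>
      (hg x (lt_of_lt_of_le ha hx.1)).hasDerivWithinAt
    exact constant_of_has_deriv_right_zero hcont hder b ⟨hab, le_refl b⟩
  intro r s hr hs
  rcases le_total r s with h | h
  · exact (key r s hr h).symm
  · exact key s r hs h

/-- The Wronskian quantity `f^(k+1) (φ ψ' - ψ φ')`. -/
def Wr (k : ℕ) (f φ φ' ψ ψ' : ℝ → ℝ) (r : ℝ) : ℝ :=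
  φ r * (f r ^ (k + 1) * ψ' r) - ψ r * (f r ^ (k + 1) * φ' r)

lemma hasDerivAt_wr (r : ℝ) (hfpos : 0 < f r) (hf : HasDerivAt f (f' r) r)
    (hφ : HasDerivAt φ (φ' r) r) (hφ' : HasDerivAt φ' (φ'' r) r)
    (hodeφ : φ'' r + ((k : ℝ) + 1) * (f' r / f r) * φ' r = lam * φ r / (f r) ^ 2)
    (hψ : HasDerivAt ψ (ψ' r) r) (hψ' : HasDerivAt ψ' (ψ'' r) r)
    (hodeψ : ψ'' r + ((k : ℝ) + 1) * (f' r / f r) * ψ' r = lam * ψ r / (f r) ^ 2) :
    HasDerivAt (Wr k f φ φ' ψ ψ') 0 r := by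
  have g1 := hasDerivAt_g r hfpos hf hψ' hodeψ
  have g2 := hasDerivAt_g r hfpos hf hφ' hodeφ
  have h : HasDerivAt (fun r => φ r * (f r ^ (k + 1) * ψ' r) - ψ r * (f r ^ (k + 1) * φ' r))
      (φ' r * (f r ^ (k + 1) * ψ' r) + φ r * (lam * f r ^ (k + 1) * ψ r / f r ^ 2)
        - (ψ' r * (f r ^ (k + 1) * φ' r) + ψ r * (lam * f r ^ (k + 1) * φ r / f r ^ 2))) r :=
    (hφ.mul g1).sub (hψ.mul g2)
  show HasDerivAt (fun r => φ r * (f r ^ (k + 1) * ψ' r) - ψ r * (f r ^ (k + 1) * φ' r)) 0 r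
  refine h.congr_deriv ?_
  ring

/-- The Wronskian of two regular solutions vanishes identically. -/
lemma wr_zero (hj : 1 ≤ j) (hf0 : f 0 = 0)
    (hf0' : HasDerivWithinAt f 1 (Ici 0) 0)
    (hfpos : ∀ r, 0 < r → 0 < f r)
    (hf : ∀ r, 0 < r → HasDerivAt f (f' r) r)
    (hφ : ∀ r, 0 < r → HasDerivAt φ (φ' r) r)
    (hφ' : ∀ r, 0 < r → HasDerivAt φ' (φ'' r) r)
    (hodeφ : ∀ r, 0 < r →
      φ'' r + ((k : ℝ) + 1) * (f' r / f r) * φ' r = lam * φ r / (f r) ^ 2)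
    (hregφ : ∃ C ε : ℝ, 0 < ε ∧ ∀ r, 0 < r → r < ε →
      |φ r| ≤ C * r ^ j ∧ |φ' r| ≤ C * r ^ (j - 1))
    (hψ : ∀ r, 0 < r → HasDerivAt ψ (ψ' r) r)
    (hψ' : ∀ r, 0 < r → HasDerivAt ψ' (ψ'' r) r)
    (hodeψ : ∀ r, 0 < r →
      ψ'' r + ((k : ℝ) + 1) * (f' r / f r) * ψ' r = lam * ψ r / (f r) ^ 2)
    (hregψ : ∃ C ε : ℝ, 0 < ε ∧ ∀ r, 0 < r → r < ε →
      |ψ r| ≤ C * r ^ j ∧ |ψ' r| ≤ C * r ^ (j - 1)) :
    ∀ r, 0 < r → Wr k f φ φ' ψ ψ' r = 0 := by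
  have hconst := const_of_deriv_zero (g := Wr k f φ φ' ψ ψ') (fun x hx =>
    hasDerivAt_wr x (hfpos x hx) (hf x hx) (hφ x hx) (hφ' x hx) (hodeφ x hx)
      (hψ x hx) (hψ' x hx) (hodeψ x hx))
  intro r0 hr0
  by_contra hne
  have hδpos : 0 < |Wr k f φ φ' ψ ψ' r0| := abs_pos.mpr hne
  obtain ⟨C, ε, hε, hC⟩ := hregφ
  obtain ⟨D, ε', hε', hD⟩ := hregψ
  -- `f ≤ 1` near `0`
  have hcont : ContinuousWithinAt f (Ici 0) 0 := hf0'.continuousWithinAt
  rw [Metric.continuousWithinAt_iff] at hcont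
  obtain ⟨η, hη, hfη⟩ := hcont 1 one_pos
  have hfle : ∀ r, 0 < r → r < η → f r ≤ 1 := by
    intro r hr hrη
    have := hfη (x := r) (mem_Ici.mpr hr.le) (by
      rw [Real.dist_eq, sub_zero, abs_of_pos hr]; exact hrη)
    rw [Real.dist_eq, hf0, sub_zero] at this
    exact (le_abs_self _).trans this.le
  set δ := |Wr k f φ φ' ψ ψ' r0| with hδ
  have hA : 0 ≤ |C| * |D| := by positivity
  obtain ⟨r, hr, hrε, hrε', hrη, hr1, hrδ⟩ : ∃ r : ℝ, 0 < r ∧ r < ε ∧ r < ε' ∧ r < η ∧ r < 1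
      ∧ 2 * (|C| * |D|) * r < δ := by
    refine ⟨min (min (ε / 2) (ε' / 2)) (min (min (η / 2) (1 / 2))
      (δ / (2 * (2 * (|C| * |D|) + 1)))), ?_, ?_, ?_, ?_, ?_, ?_⟩
    · positivity
    · exact lt_of_le_of_lt ((min_le_left _ _).trans (min_le_left _ _)) (by linarith)
    · exact lt_of_le_of_lt ((min_le_left _ _).trans (min_le_right _ _)) (by linarith)
    · exact lt_of_le_of_lt ((min_le_right _ _).trans ((min_le_left _ _).trans (min_le_left _ _)))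
        (by linarith)
    · exact lt_of_le_of_lt ((min_le_right _ _).trans ((min_le_left _ _).trans (min_le_right _ _)))
        (by norm_num)
    · have h1 : min (min (ε / 2) (ε' / 2)) (min (min (η / 2) (1 / 2))
          (δ / (2 * (2 * (|C| * |D|) + 1)))) ≤ δ / (2 * (2 * (|C| * |D|) + 1)) :=
        (min_le_right _ _).trans (min_le_right _ _)
      have h2 : 2 * (|C| * |D|) * (δ / (2 * (2 * (|C| * |D|) + 1))) < δ := by
        rw [← mul_div_assoc, div_lt_iff₀ (by positivity)]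
        nlinarith
      exact lt_of_le_of_lt (mul_le_mul_of_nonneg_left h1 (by positivity)) h2
  have hW : Wr k f φ φ' ψ ψ' r = Wr k f φ φ' ψ ψ' r0 := hconst r r0 hr hr0
  obtain ⟨h1, h2⟩ := hC r hr hrε
  obtain ⟨h3, h4⟩ := hD r hr hrε'
  have hfr : 0 < f r := hfpos r hr
  have hfr1 : f r ^ (k + 1) ≤ 1 := pow_le_one₀ hfr.le (hfle r hr hrη)
  have hrr : r ^ j * r ^ (j - 1) ≤ r := by
    obtain ⟨i, rfl⟩ : ∃ i, j = i + 1 := ⟨j - 1, by omega⟩
    simp only [Nat.add_sub_cancel]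
    have hi1 : r ^ i ≤ 1 := pow_le_one₀ hr.le hr1.le
    have hi0 : 0 ≤ r ^ i := by positivity
    have hii : r ^ i * r ^ i ≤ 1 := by nlinarith
    calc r ^ (i + 1) * r ^ i = r * (r ^ i * r ^ i) := by ring
      _ ≤ r * 1 := mul_le_mul_of_nonneg_left hii hr.le
      _ = r := mul_one r
  have hrj : 0 ≤ r ^ j := by positivity
  have hrj' : 0 ≤ r ^ (j - 1) := by positivity
  have a1 : |φ r| ≤ |C| * r ^ j := h1.trans (mul_le_mul_of_nonneg_right (le_abs_self C) hrj)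
  have a2 : |φ' r| ≤ |C| * r ^ (j - 1) :=
    h2.trans (mul_le_mul_of_nonneg_right (le_abs_self C) hrj')
  have a3 : |ψ r| ≤ |D| * r ^ j := h3.trans (mul_le_mul_of_nonneg_right (le_abs_self D) hrj)
  have a4 : |ψ' r| ≤ |D| * r ^ (j - 1) :=
    h4.trans (mul_le_mul_of_nonneg_right (le_abs_self D) hrj')
  have t1 : |φ r * (f r ^ (k + 1) * ψ' r)| ≤ |C| * |D| * r := by
    rw [abs_mul, abs_mul, abs_of_pos (pow_pos hfr _)]
    calc |φ r| * (f r ^ (k + 1) * |ψ' r|)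
        ≤ (|C| * r ^ j) * (1 * (|D| * r ^ (j - 1))) := by
          apply mul_le_mul a1 _ (by positivity) (by positivity)
          exact mul_le_mul hfr1 a4 (abs_nonneg _) zero_le_one
      _ = |C| * |D| * (r ^ j * r ^ (j - 1)) := by ring
      _ ≤ |C| * |D| * r := mul_le_mul_of_nonneg_left hrr hA
  have t2 : |ψ r * (f r ^ (k + 1) * φ' r)| ≤ |C| * |D| * r := by
    rw [abs_mul, abs_mul, abs_of_pos (pow_pos hfr _)]
    calc |ψ r| * (f r ^ (k + 1) * |φ' r|)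
        ≤ (|D| * r ^ j) * (1 * (|C| * r ^ (j - 1))) := by
          apply mul_le_mul a3 _ (by positivity) (by positivity)
          exact mul_le_mul hfr1 a2 (abs_nonneg _) zero_le_one
      _ = |C| * |D| * (r ^ j * r ^ (j - 1)) := by ring
      _ ≤ |C| * |D| * r := mul_le_mul_of_nonneg_left hrr hA
  have habs : |Wr k f φ φ' ψ ψ' r| ≤ 2 * (|C| * |D|) * r := by
    unfold Wr
    calc |φ r * (f r ^ (k + 1) * ψ' r) - ψ r * (f r ^ (k + 1) * φ' r)|
        ≤ |φ r * (f r ^ (k + 1) * ψ' r)| + |ψ r * (f r ^ (k + 1) * φ' r)| := abs_sub _ _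
      _ ≤ |C| * |D| * r + |C| * |D| * r := add_le_add t1 t2
      _ = 2 * (|C| * |D|) * r := by ring
  rw [hW] at habs
  linarith

/-- Two regular solutions, one of them without zeros, are proportional. -/
lemma proportional (hj : 1 ≤ j) (hf0 : f 0 = 0)
    (hf0' : HasDerivWithinAt f 1 (Ici 0) 0)
    (hfpos : ∀ r, 0 < r → 0 < f r)
    (hf : ∀ r, 0 < r → HasDerivAt f (f' r) r)
    (hφ : ∀ r, 0 < r → HasDerivAt φ (φ' r) r)
    (hφ' : ∀ r, 0 < r → HasDerivAt φ' (φ'' r) r)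
    (hodeφ : ∀ r, 0 < r →
      φ'' r + ((k : ℝ) + 1) * (f' r / f r) * φ' r = lam * φ r / (f r) ^ 2)
    (hregφ : ∃ C ε : ℝ, 0 < ε ∧ ∀ r, 0 < r → r < ε →
      |φ r| ≤ C * r ^ j ∧ |φ' r| ≤ C * r ^ (j - 1))
    (hψ : ∀ r, 0 < r → HasDerivAt ψ (ψ' r) r)
    (hψ' : ∀ r, 0 < r → HasDerivAt ψ' (ψ'' r) r)
    (hodeψ : ∀ r, 0 < r →
      ψ'' r + ((k : ℝ) + 1) * (f' r / f r) * ψ' r = lam * ψ r / (f r) ^ 2)
    (hregψ : ∃ C ε : ℝ, 0 < ε ∧ ∀ r, 0 < r → r < ε →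
      |ψ r| ≤ C * r ^ j ∧ |ψ' r| ≤ C * r ^ (j - 1))
    (hψne : ∀ r, 0 < r → ψ r ≠ 0) :
    ∃ c : ℝ, ∀ r, 0 < r → φ r = c * ψ r := by
  have hW := wr_zero hj hf0 hf0' hfpos hf hφ hφ' hodeφ hregφ hψ hψ' hodeψ hregψ
  have hq : ∀ x, 0 < x → HasDerivAt (fun r => φ r / ψ r) 0 x := by
    intro x hx
    have h := (hφ x hx).div (hψ x hx) (hψne x hx)
    have hw := hW x hx
    unfold Wr at hw
    have hp : f x ^ (k + 1) ≠ 0 := (pow_pos (hfpos x hx) _).ne'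
    have hnum : φ' x * ψ x - φ x * ψ' x = 0 := by
      have e : f x ^ (k + 1) * (φ' x * ψ x - φ x * ψ' x) = 0 := by linarith
      rcases mul_eq_zero.mp e with h0 | h0
      · exact absurd h0 hp
      · exact h0
    have h' : HasDerivAt (fun r => φ r / ψ r) ((φ' x * ψ x - φ x * ψ' x) / ψ x ^ 2) x := h
    refine h'.congr_deriv ?_
    rw [hnum, zero_div]
  have hconst := const_of_deriv_zero hq
  refine ⟨φ 1 / ψ 1, fun r hr => ?_⟩
  have h1 : φ r / ψ r = φ 1 / ψ 1 := hconst r 1 hr one_pos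
  exact (div_eq_iff (hψne r hr)).mp h1

end

end Vale.Agent.Helper6.P225Unique
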